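import Crest.Prelude.Def_BernoulliConv

/-! Algebraic facts on quartic Salem numbers (row 104, task T2; helper8). -/

set_option autoImplicit false

open Polynomial
open Crest.AnalysisR

namespace Crest.Agent.H24.Salem

/-- An algebraic integer is not a half-integer. -/
theorem not_half (x : ℝ) (hx : IsIntegral ℤ x) (n : ℤ) : x ≠ n + 1/2 := by
  intro h
  have h1 : IsIntegral ℤ (x - n) := hx.sub (isIntegral_algebraMap (R := ℤ) (A := ℝ) (x := n))
  have h2 : x - n = algebraMap ℚ ℝ (1/2) := by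
    rw [h]; norm_num
  rw [h2] at h1
  have h3 : IsIntegral ℤ (1/2 : ℚ) :=
    (isIntegral_algebraMap_iff (algebraMap ℚ ℝ).injective).1 h1
  obtain ⟨y, hy⟩ := (IsIntegrallyClosed.isIntegral_iff (R := ℤ) (K := ℚ)).1 h3
  have hy' : (y : ℚ) = 1/2 := by simpa using hy
  have h4 : ((2 * y : ℤ) : ℚ) = ((1 : ℤ) : ℚ) := by push_cast; rw [hy']; norm_num
  have h5 : 2 * y = 1 := by exact_mod_cast h4
  omega

lemma inv_integral (β : ℝ) (h : IsQuarticSalem β) : IsIntegral ℤ (β⁻¹) := by
  obtain ⟨h1, hint, hdeg, hinv, hroots⟩ := h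
  have hmp : minpoly ℚ β = (minpoly ℤ β).map (algebraMap ℤ ℚ) :=
    minpoly.isIntegrallyClosed_eq_field_fractions' ℚ hint
  refine ⟨minpoly ℤ β, minpoly.monic hint, ?_⟩
  rw [hmp, Polynomial.aeval_map_algebraMap] at hinv
  simpa [Polynomial.aeval_def] using hinv

theorem zpow_integral (β : ℝ) (h : IsQuarticSalem β) (j : ℤ) : IsIntegral ℤ (β ^ j) := by
  obtain ⟨n, rfl | rfl⟩ := j.eq_nat_or_neg
  · rw [zpow_natCast]; exact h.2.1.pow n
  · rw [zpow_neg, zpow_natCast, ← inv_pow]
    exact (inv_integral β h).pow n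

/-- Conjugation preserves roots of rational polynomials. -/
lemma conj_root (p : ℚ[X]) (z : ℂ) (hz : Polynomial.aeval z p = 0) :
    Polynomial.aeval ((starRingEnd ℂ) z) p = 0 := by
  have := congrArg (starRingEnd ℂ) hz
  rw [map_zero] at this
  have h2 := Polynomial.aeval_algHom_apply
    ((Complex.conjAe : ℂ →ₐ[ℝ] ℂ).restrictScalars ℚ) z p
  have h3 : ((Complex.conjAe : ℂ →ₐ[ℝ] ℂ).restrictScalars ℚ) z = (starRingEnd ℂ) z := rfl
  rw [h3] at h2
  rw [h2, hz, map_zero]

theorem exists_omega (β : ℝ) (h : IsQuarticSalem β) :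
    ∃ ω : ℂ, ‖ω‖ = 1 ∧ (∀ m : ℕ, 1 ≤ m → ω ^ m ≠ 1) ∧
      (∀ j : ℤ, ∃ t : ℤ, β ^ j + β ^ (-j) + 2 * (ω ^ j).re = t) := by
  classical
  have hall := h
  obtain ⟨h1, hint, hdeg, hinv, hroots⟩ := h
  have hintQ : IsIntegral ℚ β := hint.tower_top
  set P := minpoly ℚ β with hP
  have hirr : Irreducible P := minpoly.irreducible hintQ
  have hmonic : P.Monic := minpoly.monic hintQ
  have hP0 : P ≠ 0 := hmonic.ne_zero
  have hsep : P.Separable := hirr.separable
  have hb0 : 0 < β := by linarith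
  have hbne : β ≠ β⁻¹ := by
    intro hc
    have : β⁻¹ < 1 := inv_lt_one_of_one_lt₀ h1
    linarith
  -- the roots in ℂ
  have hcard : Fintype.card (P.rootSet ℂ) = 4 := by
    rw [Polynomial.card_rootSet_eq_natDegree hsep (IsAlgClosed.splits _)]
    exact hdeg
  have hfs : (P.rootSet ℂ).toFinset.card = 4 := by
    rw [Set.toFinset_card]; exact hcard
  set S := (P.rootSet ℂ).toFinset with hS
  have hmemS : ∀ z : ℂ, z ∈ S ↔ Polynomial.aeval z P = 0 := by
    intro z
    rw [hS, Set.mem_toFinset, Polynomial.mem_rootSet]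
    simp [hP0]
  have hβS : (β : ℂ) ∈ S := by
    rw [hmemS]
    have := minpoly.aeval ℚ β
    have h2 := Polynomial.aeval_algebraMap_apply (A := ℝ) ℂ β P
    have h3 : (algebraMap ℝ ℂ) β = (β : ℂ) := rfl
    rw [h3] at h2
    rw [h2, this, map_zero]
  have hβS' : ((β⁻¹ : ℝ) : ℂ) ∈ S := by
    rw [hmemS]
    have h2 := Polynomial.aeval_algebraMap_apply (A := ℝ) ℂ (β⁻¹) P
    have h3 : (algebraMap ℝ ℂ) (β⁻¹) = ((β⁻¹ : ℝ) : ℂ) := rfl
    rw [h3] at h2
    rw [h2, hinv, map_zero]
  have hne : (β : ℂ) ≠ ((β⁻¹ : ℝ) : ℂ) := by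
    intro hc; exact hbne (Complex.ofReal_injective hc)
  -- a further root
  obtain ⟨ω, hωS, hω1, hω2⟩ : ∃ ω ∈ S, ω ≠ (β : ℂ) ∧ ω ≠ ((β⁻¹ : ℝ) : ℂ) := by
    by_contra hcon
    push Not at hcon
    have hsub : S ⊆ {(β : ℂ), ((β⁻¹ : ℝ) : ℂ)} := by
      intro z hz
      rw [Finset.mem_insert, Finset.mem_singleton]
      by_cases hzb : z = (β : ℂ)
      · exact Or.inl hzb
      · exact Or.inr (hcon z hz hzb)
    have := Finset.card_le_card hsub
    have h2 : ({(β : ℂ), ((β⁻¹ : ℝ) : ℂ)} : Finset ℂ).card ≤ 2 := Finset.card_le_two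
    omega
  have hωroot : Polynomial.aeval ω P = 0 := (hmemS ω).1 hωS
  have hωnorm : ‖ω‖ = 1 := by
    rcases hroots ω hωroot with h | h | h
    · exact absurd h hω1
    · exact absurd h hω2
    · exact h
  -- ω is not a root of unity
  have hmpω : P = minpoly ℚ ω := minpoly.eq_of_irreducible_of_monic hirr hωroot hmonic
  have hunity : ∀ m : ℕ, 1 ≤ m → ω ^ m ≠ 1 := by
    intro m hm hc
    have hdvd : P ∣ (X ^ m - 1 : ℚ[X]) := by
      rw [hmpω]
      apply minpoly.dvd
      simp [hc]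
    have h0 : Polynomial.aeval β (X ^ m - 1 : ℚ[X]) = 0 := by
      obtain ⟨q, hq⟩ := hdvd
      rw [hq, map_mul, minpoly.aeval, zero_mul]
    have h2 : β ^ m = 1 := by
      have : β ^ m - 1 = 0 := by simpa using h0
      linarith
    have h3 : 1 < β ^ m := one_lt_pow₀ h1 (by omega)
    linarith
  -- the conjugate root
  have hcS : (starRingEnd ℂ) ω ∈ S := (hmemS _).2 (conj_root P ω hωroot)
  have hcnorm : ‖(starRingEnd ℂ) ω‖ = 1 := by rw [RCLike.norm_conj]; exact hωnorm
  have hcne : (starRingEnd ℂ) ω ≠ ω := by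
    intro hc
    have him : ω.im = 0 := by
      have := congrArg Complex.im hc
      rw [Complex.conj_im] at this
      linarith
    have hsq : ω ^ 2 = 1 := by
      have h3 : ω * (starRingEnd ℂ) ω = 1 := by
        rw [Complex.mul_conj, Complex.normSq_eq_norm_sq, hωnorm]; norm_num
      rw [hc] at h3
      rw [sq]; exact h3
    exact hunity 2 (by norm_num) hsq
  have hc1 : (starRingEnd ℂ) ω ≠ (β : ℂ) := by
    intro hc
    apply hω1
    have := congrArg (starRingEnd ℂ) hc
    simpa using this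
  have hc2 : (starRingEnd ℂ) ω ≠ ((β⁻¹ : ℝ) : ℂ) := by
    intro hc
    apply hω2
    have := congrArg (starRingEnd ℂ) hc
    simpa using this
  have hSeq : S = {(β : ℂ), ((β⁻¹ : ℝ) : ℂ), ω, (starRingEnd ℂ) ω} := by
    symm
    apply Finset.eq_of_subset_of_card_le
    · intro z hz
      simp only [Finset.mem_insert, Finset.mem_singleton] at hz
      rcases hz with rfl | rfl | rfl | rfl
      · exact hβS
      · exact hβS'
      · exact hωS
      · exact hcS
    · rw [hfs]
      rw [Finset.card_insert_of_notMem, Finset.card_insert_of_notMem,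
        Finset.card_insert_of_notMem, Finset.card_singleton]
      · simpa using hcne.symm
      · simp only [Finset.mem_insert, Finset.mem_singleton, not_or]
        exact ⟨hω2.symm, hc2.symm⟩
      · simp only [Finset.mem_insert, Finset.mem_singleton, not_or]
        exact ⟨hne, hω1.symm, hc1.symm⟩
  refine ⟨ω, hωnorm, hunity, ?_⟩
  intro j
  -- the trace
  have : FiniteDimensional ℚ (IntermediateField.adjoin ℚ {β}) :=
    IntermediateField.adjoin.finiteDimensional hintQ
  set g : IntermediateField.adjoin ℚ {β} := IntermediateField.AdjoinSimple.gen ℚ β with hg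
  have hginj : Function.Injective (algebraMap (IntermediateField.adjoin ℚ {β}) ℝ) :=
    (algebraMap (IntermediateField.adjoin ℚ {β}) ℝ).injective
  have hgβ : algebraMap (IntermediateField.adjoin ℚ {β}) ℝ g = β :=
    IntermediateField.AdjoinSimple.algebraMap_gen ℚ β
  have hgint : IsIntegral ℤ (g ^ j) := by
    rw [← isIntegral_algebraMap_iff (B := ℝ) hginj, map_zpow₀, hgβ]
    exact zpow_integral β hall j
  have htr : IsIntegral ℤ (Algebra.trace ℚ (IntermediateField.adjoin ℚ {β}) (g ^ j)) :=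
    Algebra.isIntegral_trace hgint
  obtain ⟨t, ht⟩ := (IsIntegrallyClosed.isIntegral_iff (R := ℤ) (K := ℚ)).1 htr
  refine ⟨t, ?_⟩
  have hsum := trace_eq_sum_embeddings (K := ℚ) (L := IntermediateField.adjoin ℚ {β}) ℂ
    (x := g ^ j)
  have hsum2 : ∑ σ : (IntermediateField.adjoin ℚ {β}) →ₐ[ℚ] ℂ, σ (g ^ j) = ∑ z ∈ S, z ^ j := by
    refine Finset.sum_nbij (fun σ => σ g) ?_ ?_ ?_ ?_
    · intro σ _
      rw [hmemS]
      have h5 : Polynomial.aeval (σ g) P = σ (Polynomial.aeval g P) :=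
        Polynomial.aeval_algHom_apply σ g P
      have h6 : Polynomial.aeval g P = 0 := by
        apply hginj
        rw [map_zero, ← Polynomial.aeval_algebraMap_apply, hgβ]
        exact minpoly.aeval ℚ β
      rw [h5, h6, map_zero]
    · intro σ _ τ _ hστ
      refine (IntermediateField.adjoin.powerBasis hintQ).algHom_ext ?_
      rw [IntermediateField.adjoin.powerBasis_gen]
      exact hστ
    · intro z hz
      have hz' : z ∈ P.aroots ℂ := by
        rw [Polynomial.mem_aroots]
        exact ⟨hP0, (hmemS z).1 (by simpa using hz)⟩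
      refine ⟨(IntermediateField.algHomAdjoinIntegralEquiv ℚ hintQ).symm ⟨z, hz'⟩, Finset.mem_coe.2 (Finset.mem_univ _), ?_⟩
      exact IntermediateField.algHomAdjoinIntegralEquiv_symm_apply_gen ℚ hintQ ⟨z, hz'⟩
    · intro σ _
      rw [map_zpow₀]
  rw [hsum2, ← ht, hSeq] at hsum
  rw [Finset.sum_insert, Finset.sum_insert, Finset.sum_insert, Finset.sum_singleton] at hsum
  · have hre := congrArg Complex.re hsum
    have e1 : ((β : ℂ) ^ j).re = β ^ j := by
      rw [← Complex.ofReal_zpow, Complex.ofReal_re]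
    have e2 : (((β⁻¹ : ℝ) : ℂ) ^ j).re = β ^ (-j) := by
      rw [← Complex.ofReal_zpow, Complex.ofReal_re, inv_zpow, zpow_neg]
    have e3 : (((starRingEnd ℂ) ω) ^ j).re = (ω ^ j).re := by
      rw [← map_zpow₀, Complex.conj_re]
    have e4 : ((algebraMap ℚ ℂ) ((algebraMap ℤ ℚ) t)).re = (t : ℝ) := by
      simp
    rw [e4, Complex.add_re, Complex.add_re, Complex.add_re, e1, e2, e3] at hre
    linarith
  · simpa using hcne.symm
  · simp only [Finset.mem_insert, Finset.mem_singleton, not_or]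
    exact ⟨hω2.symm, hc2.symm⟩
  · simp only [Finset.mem_insert, Finset.mem_singleton, not_or]
    exact ⟨hne, hω1.symm, hc1.symm⟩

end Crest.Agent.H24.Salem
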