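import Crest.Prelude.Def_BernoulliConv

/-! Characteristic function of Bernoulli convolutions (row 104, task T1; helper8). -/

set_option autoImplicit false

open MeasureTheory ProbabilityTheory Filter Topology
open Crest.AnalysisR

namespace Crest.Agent.H24.Salem

instance isProbabilityMeasure_fairCoin : IsProbabilityMeasure fairCoin := by
  constructor
  simp only [fairCoin, Measure.add_apply, Measure.smul_apply, measure_univ, smul_eq_mul, mul_one]
  exact ENNReal.inv_two_add_inv_two

lemma integral_fairCoin (f : Bool → ℂ) : ∫ b, f b ∂fairCoin = (f true + f false) / 2 := by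
  rw [fairCoin, integral_add_measure, integral_smul_measure, integral_smul_measure,
    integral_dirac, integral_dirac]
  · simp
    ring
  · exact (integrable_dirac (by simp)).smul_measure (by simp)
  · exact (integrable_dirac (by simp)).smul_measure (by simp)

lemma summable_signed (c : ℝ) (h0 : 0 ≤ c) (h1 : c < 1) (ε : ℕ → Bool) :
    Summable (fun n : ℕ => (if ε n then c ^ n else -(c ^ n))) := by
  refine Summable.of_norm_bounded (summable_geometric_of_lt_one h0 h1) ?_
  intro n
  split_ifs
  · rw [Real.norm_of_nonneg (by positivity)]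
  · rw [norm_neg, Real.norm_of_nonneg (by positivity)]

lemma tendsto_partial (c : ℝ) (h0 : 0 ≤ c) (h1 : c < 1) (ε : ℕ → Bool) :
    Tendsto (fun K : ℕ => ∑ n ∈ Finset.range K, (if ε n then c ^ n else -(c ^ n))) atTop
      (𝓝 (signedPowerSum c ε)) :=
  (summable_signed c h0 h1 ε).hasSum.tendsto_sum_nat

lemma measurable_partial (c : ℝ) (K : ℕ) :
    Measurable (fun ε : ℕ → Bool =>
      ∑ n ∈ Finset.range K, (if ε n then c ^ n else -(c ^ n))) := by
  refine Finset.measurable_sum _ ?_
  intro n _
  have h : Measurable (fun b : Bool => (if b then c ^ n else -(c ^ n))) := measurable_of_countable _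
  exact h.comp (measurable_pi_apply n)

lemma measurable_signedPowerSum (c : ℝ) (h0 : 0 ≤ c) (h1 : c < 1) :
    Measurable (signedPowerSum c) := by
  refine measurable_of_tendsto_metrizable (measurable_partial c) ?_
  rw [tendsto_pi_nhds]
  exact tendsto_partial c h0 h1

theorem isProbabilityMeasure_bernoulliConvolution (β : ℝ) (hβ : 1 < β) :
    IsProbabilityMeasure (bernoulliConvolution β⁻¹) := by
  have h0 : 0 ≤ β⁻¹ := inv_nonneg.2 (by linarith)
  have h1 : β⁻¹ < 1 := inv_lt_one_of_one_lt₀ hβ
  unfold bernoulliConvolution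
  exact Measure.isProbabilityMeasure_map (measurable_signedPowerSum _ h0 h1).aemeasurable

lemma integral_partial (c ξ : ℝ) (K : ℕ) :
    ∫ ε : ℕ → Bool, Complex.exp (ξ * ((∑ n ∈ Finset.range K,
      (if ε n then c ^ n else -(c ^ n)) : ℝ) : ℂ) * Complex.I)
      ∂(Measure.infinitePi (fun _ : ℕ => fairCoin))
      = ((∏ n ∈ Finset.range K, Real.cos (ξ * c ^ n) : ℝ) : ℂ) := by
  set F : (∀ _ : Finset.range K, Bool) → ℂ := fun y =>
    ∏ i : Finset.range K, Complex.exp (ξ * ((if y i then c ^ (i : ℕ) else -(c ^ (i : ℕ)) : ℝ) : ℂ)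
      * Complex.I) with hF
  have h1 : ∀ ε : ℕ → Bool, Complex.exp (ξ * ((∑ n ∈ Finset.range K,
      (if ε n then c ^ n else -(c ^ n)) : ℝ) : ℂ) * Complex.I) = F ((Finset.range K).restrict ε) := by
    intro ε
    rw [hF]
    simp only [Finset.restrict]
    rw [← Complex.exp_sum]
    congr 1
    rw [← Finset.sum_mul, ← Finset.mul_sum, ← Complex.ofReal_sum]
    rw [← Finset.sum_coe_sort (Finset.range K) (fun n => if ε n then c ^ n else -(c ^ n))]
    rfl
  have h2 : ∫ ε : ℕ → Bool, F ((Finset.range K).restrict ε)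
      ∂(Measure.infinitePi (fun _ : ℕ => fairCoin))
      = ∫ y, F y ∂(Measure.pi (fun _ : Finset.range K => fairCoin)) := by
    refine integral_restrict_infinitePi (μ := fun _ : ℕ => fairCoin) ?_
    exact (measurable_of_countable _).aestronglyMeasurable
  rw [integral_congr_ae (Filter.Eventually.of_forall h1), h2, hF]
  rw [integral_fintype_prod_eq_prod (μ := fun _ : Finset.range K => fairCoin)
    (f := fun (i : Finset.range K) (b : Bool) =>
      Complex.exp (ξ * ((if b then c ^ (i : ℕ) else -(c ^ (i : ℕ)) : ℝ) : ℂ) * Complex.I))]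
  rw [← Finset.prod_coe_sort (Finset.range K) (fun n => Real.cos (ξ * c ^ n)), Complex.ofReal_prod]
  refine Finset.prod_congr rfl ?_
  intro i _
  rw [integral_fairCoin, Complex.ofReal_cos, Complex.cos]
  simp only [if_true, Bool.false_eq_true, if_false]
  push_cast
  congr 2
  · congr 1; ring

theorem tendsto_prod_cos (β : ℝ) (hβ : 1 < β) (ξ : ℝ) :
    Tendsto (fun K : ℕ => ((∏ n ∈ Finset.range K, Real.cos (ξ * β⁻¹ ^ n) : ℝ) : ℂ)) atTop
      (𝓝 (charFun (bernoulliConvolution β⁻¹) ξ)) := by
  have h0 : 0 ≤ β⁻¹ := inv_nonneg.2 (by linarith)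
  have h1 : β⁻¹ < 1 := inv_lt_one_of_one_lt₀ hβ
  have hmeas := measurable_signedPowerSum _ h0 h1
  have hchar : charFun (bernoulliConvolution β⁻¹) ξ
      = ∫ ε : ℕ → Bool, Complex.exp (ξ * (signedPowerSum β⁻¹ ε : ℂ) * Complex.I)
        ∂(Measure.infinitePi (fun _ : ℕ => fairCoin)) := by
    rw [charFun_apply_real, bernoulliConvolution, integral_map hmeas.aemeasurable]
    exact (by fun_prop : Continuous
      (fun x : ℝ => Complex.exp (ξ * (x : ℂ) * Complex.I))).aestronglyMeasurable
  rw [hchar]
  have hlim : Tendsto (fun K : ℕ => ∫ ε : ℕ → Bool, Complex.exp (ξ * ((∑ n ∈ Finset.range K,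
      (if ε n then β⁻¹ ^ n else -(β⁻¹ ^ n)) : ℝ) : ℂ) * Complex.I)
      ∂(Measure.infinitePi (fun _ : ℕ => fairCoin))) atTop
      (𝓝 (∫ ε : ℕ → Bool, Complex.exp (ξ * (signedPowerSum β⁻¹ ε : ℂ) * Complex.I)
        ∂(Measure.infinitePi (fun _ : ℕ => fairCoin)))) := by
    refine tendsto_integral_of_dominated_convergence (fun _ => (1 : ℝ)) ?_ ?_ ?_ ?_
    · intro K
      have hc : Continuous (fun x : ℝ => Complex.exp (ξ * (x : ℂ) * Complex.I)) := by fun_prop
      exact (hc.measurable.comp (measurable_partial β⁻¹ K)).aestronglyMeasurable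
    · exact integrable_const _
    · intro K
      refine Filter.Eventually.of_forall ?_
      intro ε
      rw [← Complex.ofReal_mul, Complex.norm_exp_ofReal_mul_I]
    · refine Filter.Eventually.of_forall ?_
      intro ε
      have hc : Continuous (fun x : ℝ => Complex.exp (ξ * (x : ℂ) * Complex.I)) := by fun_prop
      exact (hc.tendsto _).comp (tendsto_partial β⁻¹ h0 h1 ε)
  simp_rw [integral_partial] at hlim
  exact hlim

end Crest.Agent.H24.Salem
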