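import Mathlib

/-! Singularity criterion and L2 norms of trigonometric sums (row 104, task T3; helper8). -/

set_option autoImplicit false

open MeasureTheory ProbabilityTheory Filter Topology

namespace Crest.Agent.H24.Salem

theorem mutuallySingular_of_approx (μ γ : Measure ℝ) [IsProbabilityMeasure μ]
    [IsProbabilityMeasure γ]
    (h : ∀ ε > 0, ∃ Z : ℝ → ℂ, Continuous Z ∧ (∃ C, ∀ x, ‖Z x‖ ≤ C) ∧
      ∫ x, ‖Z x - 1‖ ^ 2 ∂μ ≤ ε ∧ ∫ x, ‖Z x‖ ^ 2 ∂γ ≤ ε) : μ ⟂ₘ γ := by
  have hpos : ∀ k : ℕ, (0 : ℝ) < (1/2) ^ k := fun k => by positivity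
  choose Z hZc hZb hZμ hZγ using fun k : ℕ => h ((1/2) ^ k) (hpos k)
  set A : ℕ → Set ℝ := fun k => {x | (1/4 : ℝ) ≤ ‖Z k x‖ ^ 2} with hA
  have hAm : ∀ k, MeasurableSet (A k) := fun k =>
    (isClosed_le continuous_const ((hZc k).norm.pow 2)).measurableSet
  have hintγ : ∀ k, Integrable (fun x => ‖Z k x‖ ^ 2) γ := by
    intro k
    obtain ⟨C, hC⟩ := hZb k
    refine Integrable.of_bound ((hZc k).norm.pow 2).aestronglyMeasurable (C ^ 2) ?_
    refine Filter.Eventually.of_forall fun x => ?_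
    rw [Real.norm_of_nonneg (by positivity)]
    exact pow_le_pow_left₀ (norm_nonneg _) (hC x) 2
  have hintμ : ∀ k, Integrable (fun x => ‖Z k x - 1‖ ^ 2) μ := by
    intro k
    obtain ⟨C, hC⟩ := hZb k
    refine Integrable.of_bound (((hZc k).sub continuous_const).norm.pow 2).aestronglyMeasurable
      ((C + 1) ^ 2) ?_
    refine Filter.Eventually.of_forall fun x => ?_
    rw [Real.norm_of_nonneg (by positivity)]
    refine pow_le_pow_left₀ (norm_nonneg _) ?_ 2
    calc ‖Z k x - 1‖ ≤ ‖Z k x‖ + ‖(1 : ℂ)‖ := norm_sub_le _ _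
      _ ≤ C + 1 := by rw [norm_one]; linarith [hC x]
  have hγA : ∀ k, γ.real (A k) ≤ 4 * (1/2) ^ k := by
    intro k
    have h1 := mul_meas_ge_le_integral_of_nonneg (μ := γ) (f := fun x => ‖Z k x‖ ^ 2)
      (Filter.Eventually.of_forall fun x => by positivity) (hintγ k) (1/4)
    have h2 := h1.trans (hZγ k)
    have h3 : γ.real {x | (1/4 : ℝ) ≤ ‖Z k x‖ ^ 2} = γ.real (A k) := rfl
    rw [h3] at h2
    linarith
  have hμA : ∀ k, μ.real ((A k)ᶜ) ≤ 4 * (1/2) ^ k := by
    intro k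
    have h1 := mul_meas_ge_le_integral_of_nonneg (μ := μ) (f := fun x => ‖Z k x - 1‖ ^ 2)
      (Filter.Eventually.of_forall fun x => by positivity) (hintμ k) (1/4)
    have h2 := h1.trans (hZμ k)
    have h3 : μ.real ((A k)ᶜ) ≤ μ.real {x | (1/4 : ℝ) ≤ ‖Z k x - 1‖ ^ 2} := by
      refine measureReal_mono ?_ (measure_ne_top _ _)
      intro x hx
      simp only [hA, Set.mem_compl_iff, Set.mem_ofPred_eq, not_le] at hx
      simp only [Set.mem_ofPred_eq]
      have h4 : ‖Z k x‖ < 1/2 := by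
        by_contra hcon
        push Not at hcon
        have : (1/2 : ℝ) ^ 2 ≤ ‖Z k x‖ ^ 2 := pow_le_pow_left₀ (by norm_num) hcon 2
        norm_num at this
        linarith
      have h5 : 1 ≤ ‖Z k x - 1‖ + ‖Z k x‖ := by
        have := norm_sub_le (Z k x) (Z k x - 1)
        simp only [sub_sub_cancel, norm_one] at this
        linarith
      have h6 : (1/2 : ℝ) ≤ ‖Z k x - 1‖ := by linarith
      have := pow_le_pow_left₀ (by norm_num) h6 2
      norm_num at this ⊢
      linarith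
    linarith
  have hsumm : Summable (fun k : ℕ => (4 : ℝ) * (1/2) ^ k) :=
    (summable_geometric_of_lt_one (by norm_num) (by norm_num)).mul_left 4
  have key : ∀ (ν : Measure ℝ) [IsProbabilityMeasure ν] (B : ℕ → Set ℝ),
      (∀ k, ν.real (B k) ≤ 4 * (1/2) ^ k) → ν (limsup B atTop) = 0 := by
    intro ν _ B hB
    refine measure_limsup_atTop_eq_zero ?_
    have h1 : ∀ k, ν (B k) ≤ ENNReal.ofReal (4 * (1/2) ^ k) := by
      intro k
      rw [← ofReal_measureReal (measure_ne_top _ _)]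
      exact ENNReal.ofReal_le_ofReal (hB k)
    refine ne_top_of_le_ne_top ?_ (ENNReal.tsum_le_tsum h1)
    rw [← ENNReal.ofReal_tsum_of_nonneg (fun k => by positivity) hsumm]
    exact ENNReal.ofReal_ne_top
  refine ⟨limsup (fun k => (A k)ᶜ) atTop, ?_, key μ _ hμA, ?_⟩
  · exact MeasurableSet.measurableSet_limsup fun k => (hAm k).compl
  · refine measure_mono_null ?_ (key γ A hγA)
    intro x hx
    rw [Set.mem_compl_iff, mem_limsup_iff_frequently_mem] at hx
    rw [mem_limsup_iff_frequently_mem]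
    rw [not_frequently] at hx
    have : ∀ᶠ k in atTop, x ∈ A k := by
      filter_upwards [hx] with k hk
      simpa using hk
    exact this.frequently

lemma continuous_trig (n : ℕ) (a ξ : Fin n → ℝ) :
    Continuous (fun x : ℝ => ∑ j, (a j : ℂ) * Complex.exp ((ξ j * x : ℝ) * Complex.I)) := by
  fun_prop

lemma norm_trig_le (n : ℕ) (a ξ : Fin n → ℝ) (x : ℝ) :
    ‖∑ j, (a j : ℂ) * Complex.exp ((ξ j * x : ℝ) * Complex.I)‖ ≤ ∑ j, |a j| := by
  refine (norm_sum_le _ _).trans (Finset.sum_le_sum fun j _ => ?_)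
  rw [norm_mul, Complex.norm_exp_ofReal_mul_I, mul_one, Complex.norm_real, Real.norm_eq_abs]

lemma integral_exp (μ : Measure ℝ) (Φ : ℝ → ℝ)
    (hΦ : ∀ t, charFun μ t = (Φ t : ℂ)) (t : ℝ) :
    ∫ x, Complex.exp ((t * x : ℝ) * Complex.I) ∂μ = (Φ t : ℂ) := by
  rw [← hΦ, charFun_apply_real]
  refine integral_congr_ae (Filter.Eventually.of_forall fun x => ?_)
  simp only [Complex.ofReal_mul]

lemma integrable_exp (μ : Measure ℝ) [IsProbabilityMeasure μ] (t : ℝ) :
    Integrable (fun x : ℝ => Complex.exp ((t * x : ℝ) * Complex.I)) μ := by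
  refine Integrable.of_bound (C := 1) (Continuous.aestronglyMeasurable (by fun_prop)) ?_
  exact Filter.Eventually.of_forall fun x => (Complex.norm_exp_ofReal_mul_I _).le

theorem trig_sums (μ : Measure ℝ) [IsProbabilityMeasure μ] (Φ : ℝ → ℝ)
    (hΦ : ∀ t, charFun μ t = (Φ t : ℂ)) (n : ℕ) (a ξ : Fin n → ℝ) :
    (∫ x, ‖(∑ j, (a j : ℂ) * Complex.exp ((ξ j * x : ℝ) * Complex.I))‖ ^ 2 ∂μ
      = ∑ j, ∑ l, a j * a l * Φ (ξ j - ξ l)) ∧
    (∫ x, ‖(∑ j, (a j : ℂ) * Complex.exp ((ξ j * x : ℝ) * Complex.I)) - 1‖ ^ 2 ∂μ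
      = ∑ j, ∑ l, a j * a l * Φ (ξ j - ξ l) - 2 * ∑ j, a j * Φ (ξ j) + 1) := by
  set Z : ℝ → ℂ := fun x => ∑ j, (a j : ℂ) * Complex.exp ((ξ j * x : ℝ) * Complex.I) with hZ
  have hZc : Continuous Z := continuous_trig n a ξ
  have hZint : Integrable Z μ := by
    refine Integrable.of_bound (C := ∑ j, |a j|) hZc.aestronglyMeasurable ?_
    exact Filter.Eventually.of_forall fun x => norm_trig_le n a ξ x
  have hZ2int : Integrable (fun x => ‖Z x‖ ^ 2) μ := by
    refine Integrable.of_bound (C := (∑ j, |a j|) ^ 2) (hZc.norm.pow 2).aestronglyMeasurable ?_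
    refine Filter.Eventually.of_forall fun x => ?_
    rw [Real.norm_of_nonneg (by positivity)]
    exact pow_le_pow_left₀ (norm_nonneg _) (norm_trig_le n a ξ x) 2
  have hsq : ∀ x, ((‖Z x‖ ^ 2 : ℝ) : ℂ) = ∑ j, ∑ l, ((a j * a l : ℝ) : ℂ) *
      Complex.exp (((ξ j - ξ l) * x : ℝ) * Complex.I) := by
    intro x
    have h1 : ((‖Z x‖ ^ 2 : ℝ) : ℂ) = Z x * (starRingEnd ℂ) (Z x) := by
      rw [Complex.mul_conj, Complex.normSq_eq_norm_sq]
    rw [h1, hZ]
    simp only [map_sum, map_mul, Complex.conj_ofReal]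
    rw [Finset.sum_mul_sum]
    refine Finset.sum_congr rfl fun j _ => Finset.sum_congr rfl fun l _ => ?_
    have h2 : (starRingEnd ℂ) (Complex.exp ((ξ l * x : ℝ) * Complex.I))
        = Complex.exp (-((ξ l * x : ℝ) * Complex.I)) := by
      rw [← Complex.exp_conj, map_mul, Complex.conj_ofReal, Complex.conj_I, mul_neg]
    rw [h2]
    have h3 : Complex.exp (((ξ j - ξ l) * x : ℝ) * Complex.I)
        = Complex.exp ((ξ j * x : ℝ) * Complex.I) * Complex.exp (-((ξ l * x : ℝ) * Complex.I)) := by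
      rw [← Complex.exp_add]
      congr 1
      push_cast
      ring
    rw [h3]
    push_cast
    ring
  have hfirst : ∫ x, ‖Z x‖ ^ 2 ∂μ = ∑ j, ∑ l, a j * a l * Φ (ξ j - ξ l) := by
    have h1 : ((∫ x, ‖Z x‖ ^ 2 ∂μ : ℝ) : ℂ)
        = ((∑ j, ∑ l, a j * a l * Φ (ξ j - ξ l) : ℝ) : ℂ) := by
      rw [← integral_complex_ofReal]
      rw [integral_congr_ae (Filter.Eventually.of_forall hsq)]
      rw [integral_finsetSum]
      · push_cast
        refine Finset.sum_congr rfl fun j _ => ?_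
        rw [integral_finsetSum]
        · refine Finset.sum_congr rfl fun l _ => ?_
          rw [integral_const_mul]
          have := integral_exp μ Φ hΦ (ξ j - ξ l)
          push_cast at this
          rw [this]
        · intro l _
          have := (integrable_exp μ (ξ j - ξ l)).const_mul (((a j * a l : ℝ) : ℂ))
          push_cast at this
          exact this
      · intro j _
        refine integrable_finsetSum _ fun l _ => ?_
        exact (integrable_exp μ (ξ j - ξ l)).const_mul _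
    exact_mod_cast h1
  refine ⟨hfirst, ?_⟩
  have hre : ∫ x, (Z x).re ∂μ = ∑ j, a j * Φ (ξ j) := by
    have h1 : ∫ x, (Z x).re ∂μ = (∫ x, Z x ∂μ).re := integral_re hZint
    have h2 : ∫ x, Z x ∂μ = ((∑ j, a j * Φ (ξ j) : ℝ) : ℂ) := by
      rw [hZ, integral_finsetSum]
      · push_cast
        refine Finset.sum_congr rfl fun j _ => ?_
        rw [integral_const_mul]
        have := integral_exp μ Φ hΦ (ξ j)
        push_cast at this
        rw [this]
      · intro j _
        exact (integrable_exp μ (ξ j)).const_mul _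
    rw [h1, h2, Complex.ofReal_re]
  have hexp : ∀ x, ‖Z x - 1‖ ^ 2 = ‖Z x‖ ^ 2 - 2 * (Z x).re + 1 := by
    intro x
    rw [← Complex.normSq_eq_norm_sq, ← Complex.normSq_eq_norm_sq, Complex.normSq_apply,
      Complex.normSq_apply, Complex.sub_re, Complex.sub_im, Complex.one_re, Complex.one_im]
    ring
  have hreint : Integrable (fun x => (Z x).re) μ := hZint.re
  calc ∫ x, ‖Z x - 1‖ ^ 2 ∂μ = ∫ x, (‖Z x‖ ^ 2 - 2 * (Z x).re + 1) ∂μ :=
        integral_congr_ae (Filter.Eventually.of_forall hexp)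
    _ = ∫ x, ‖Z x‖ ^ 2 ∂μ - 2 * ∫ x, (Z x).re ∂μ + 1 := by
        rw [integral_add, integral_sub, integral_const_mul]
        · simp
        · exact hZ2int
        · exact hreint.const_mul 2
        · exact hZ2int.sub (hreint.const_mul 2)
        · exact integrable_const _
    _ = _ := by rw [hfirst, hre]

end Crest.Agent.H24.Salem
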