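import Crest.Agent.H24.Salem.Iterate
import Crest.Agent.H24.Salem.Criterion
import Crest.Agent.H24.Salem.CharFun

/-!
Row 104 (S0137), part 7: the trigonometric polynomials.
-/

set_option autoImplicit false
open Filter Topology MeasureTheory ProbabilityTheory

namespace Crest.Agent.H24.Salem

variable {β : ℝ} {ω : ℂ} {Φ : ℝ → ℝ} {κ : ℝ} {s : ℝ} {M : ℕ} {w : ℂ} {Q : ℕ} {H : ℝ}

theorem double_sum_le {n : ℕ} (x : Fin n → Fin n → ℝ) (A B : ℝ) (hB : 0 ≤ B)
    (hA : ∀ j, x j j ≤ A) (hx : ∀ j l, j ≠ l → x j l ≤ B) :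
    ∑ j, ∑ l, x j l ≤ n * A + n ^ 2 * B := by
  have h1 : ∀ j l, x j l ≤ (if j = l then A else 0) + B := by
    intro j l
    split_ifs with h
    · subst h; linarith [hA j]
    · linarith [hx j l h]
  calc ∑ j, ∑ l, x j l ≤ ∑ j : Fin n, ∑ l : Fin n, ((if j = l then A else 0) + B) :=
        Finset.sum_le_sum fun j _ => Finset.sum_le_sum fun l _ => h1 j l
    _ = n * A + n ^ 2 * B := by
        simp [Finset.sum_add_distrib]
        ring

/-- frequencies -/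
noncomputable def xi (β s : ℝ) (M : ℕ) (j : ℕ) : ℝ := fr β s ((8 * M * (j + 1) : ℕ) : ℤ)

theorem State.xi_low (h : State β ω Φ κ s M w Q H) {n : ℕ} {η : ℝ} (hη : η ≤ 1)
    (hn : (n : ℝ) * (8 * M * ‖w‖ ^ 2) ≤ η) {j : ℕ} (hj : j < n) :
    Real.exp (-H) ≤ |Φ (xi β s M j)| := by
  refine h.low _ (le_trans ?_ (hn.trans hη))
  push_cast
  have h1 : ((j : ℝ) + 1) ≤ n := by exact_mod_cast hj
  have h2 : 0 ≤ 8 * (M : ℝ) * ‖w‖ ^ 2 := by positivity
  calc 8 * (M : ℝ) * (j + 1) * ‖w‖ ^ 2 = ((j : ℝ) + 1) * (8 * M * ‖w‖ ^ 2) := by ring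
    _ ≤ n * (8 * M * ‖w‖ ^ 2) := mul_le_mul_of_nonneg_right h1 h2

theorem State.xi_close (hΦ : IsCosProd β Φ) (hβ : 1 < β) (hω : ‖ω‖ = 1) (hκ : 0 < κ)
    (h : State β ω Φ κ s M w Q H) (hw : ‖w‖ ≤ 1) {n : ℕ} {η : ℝ}
    (hn : (n : ℝ) * (8 * M * ‖w‖ ^ 2) ≤ η) {j l : ℕ} (hj : j < n) (hlj : l < j) :
    |Φ (xi β s M j - xi β s M l) - Φ (xi β s M j) * Φ (xi β s M l)| ≤
      |Φ (xi β s M j)| * |Φ (xi β s M l)| *
        (Real.exp (C2 β κ * (‖w‖ + ‖w‖ * M + η)) - 1) := by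
  have hcκ : ∀ j : ℤ, κ ≤ |Real.cos (Real.pi * (s * β ^ j))| := fun j => by
    have := h.cos j
    have h0 : 0 ≤ ‖w‖ := norm_nonneg _
    linarith
  have he : 4 * M ≤ 4 * M * (j - l) := Nat.le_mul_of_pos_right _ (by omega)
  have h1 := corr_close hΦ h.res hβ hω hκ hcκ hw h.wlow he (8 * M * (j + 1))
  have e1 : ((8 * M * (j + 1) : ℕ) : ℤ) - (2 * (4 * M * (j - l)) : ℕ) =
      ((8 * M * (l + 1) : ℕ) : ℤ) := by
    have : 8 * M * (j + 1) = 8 * M * (l + 1) + 2 * (4 * M * (j - l)) := by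
      obtain ⟨d, rfl⟩ := Nat.exists_eq_add_of_lt hlj
      have : l + d + 1 - l = d + 1 := by omega
      rw [this]; ring
    rw [this]; push_cast; ring
  rw [e1] at h1
  refine h1.trans ?_
  have hC2 : 0 ≤ C2 β κ := by
    rw [C2]; have := one_le_Cb hβ; positivity
  have h3 : ‖w‖ ^ 2 * ((8 * M * (j + 1) : ℕ) : ℝ) ≤ η := by
    refine le_trans ?_ hn
    push_cast
    have h1 : ((j : ℝ) + 1) ≤ n := by exact_mod_cast hj
    have h2 : 0 ≤ 8 * (M : ℝ) * ‖w‖ ^ 2 := by positivity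
    calc ‖w‖ ^ 2 * (8 * (M : ℝ) * (j + 1)) = ((j : ℝ) + 1) * (8 * M * ‖w‖ ^ 2) := by ring
      _ ≤ n * (8 * M * ‖w‖ ^ 2) := mul_le_mul_of_nonneg_right h1 h2
  refine mul_le_mul_of_nonneg_left ?_ (by positivity)
  have h4 := Real.exp_le_exp.2 (mul_le_mul_of_nonneg_left
    (by linarith : ‖w‖ + ‖w‖ * M + ‖w‖ ^ 2 * ((8 * M * (j + 1) : ℕ) : ℝ) ≤ ‖w‖ + ‖w‖ * M + η) hC2)
  linarith

theorem State.xi_far (hβ : 1 < β) (h : State β ω Φ κ s M w Q H) (hw : ‖w‖ ≤ 1 / 2)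
    {j l : ℕ} (hlj : l < j) : 1 / ‖w‖ ≤ xi β s M j - xi β s M l := by
  have hβ0 : 0 < β := by linarith
  have hw0 : 0 < ‖w‖ := lt_of_lt_of_le (by positivity) h.wlow
  have hpi := Real.pi_gt_three
  rw [xi, xi, fr, fr, zpow_natCast, zpow_natCast]
  set x := β ^ M with hx
  have hx0 : 0 < x := by positivity
  have hxinv : x⁻¹ ≤ ‖w‖ := by rw [hx, ← inv_pow]; exact h.wlow
  have hxs : x⁻¹ ≤ s := by rw [hx, ← inv_pow]; exact h.slow
  have hx1 : 1 / ‖w‖ ≤ x := by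
    rw [div_le_iff₀ hw0]
    have := mul_le_mul_of_nonneg_left hxinv hx0.le
    rwa [mul_inv_cancel₀ hx0.ne'] at this
  have hx2 : 2 ≤ x := by
    refine le_trans ?_ hx1
    rw [le_div_iff₀ hw0]; linarith
  have e1 : ∀ k : ℕ, β ^ (8 * M * (k + 1)) = (x ^ 8) ^ (k + 1) := by
    intro k
    rw [hx, ← pow_mul, ← pow_mul]; congr 1; ring
  rw [e1, e1]
  set y := x ^ 8 with hy
  have hy2 : 2 * x ≤ y := by
    rw [hy]
    have h7 : 2 ≤ x ^ 7 := by
      calc (2:ℝ) ≤ 2 ^ 7 := by norm_num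
        _ ≤ x ^ 7 := pow_le_pow_left₀ (by norm_num) hx2 7
    calc 2 * x ≤ x ^ 7 * x := mul_le_mul_of_nonneg_right h7 hx0.le
      _ = x ^ 8 := by ring
  have hy1 : 1 ≤ y := by linarith
  have h3 : y ^ (l + 1) * y ≤ y ^ (j + 1) := by
    rw [← pow_succ]
    exact pow_le_pow_right₀ hy1 (by omega)
  have h4 : y ≤ y ^ (l + 1) := by
    calc y = y ^ 1 := (pow_one y).symm
      _ ≤ y ^ (l + 1) := pow_le_pow_right₀ hy1 (by omega)
  have h5 : y * 1 ≤ y ^ (j + 1) - y ^ (l + 1) := by nlinarith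
  have h6 : s * y ≤ s * (y ^ (j + 1) - y ^ (l + 1)) :=
    mul_le_mul_of_nonneg_left (by linarith) h.res.pos.le
  have h7 : x ≤ s * y := by
    have h8 : x⁻¹ * y ≤ s * y := mul_le_mul_of_nonneg_right hxs (by linarith)
    have h9 : x⁻¹ * y = x ^ 7 := by rw [hy]; field_simp
    have h10 : x ≤ x ^ 7 := le_self_pow₀ (by linarith) (by norm_num)
    linarith
  have h11 : 0 < s * (y ^ (j + 1) - y ^ (l + 1)) := by linarith
  have e2 : Real.pi * (s * y ^ (j + 1)) - Real.pi * (s * y ^ (l + 1)) =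
      Real.pi * (s * (y ^ (j + 1) - y ^ (l + 1))) := by ring
  rw [e2]
  nlinarith

set_option maxHeartbeats 3200000 in
theorem exists_trig (hΦ : IsCosProd β Φ) (hβ : 1 < β) (hω : ‖ω‖ = 1) (hκ : 0 < κ)
    (h0 : ∀ ε > 0, ∃ (s : ℝ) (M : ℕ) (w : ℂ) (Q : ℕ) (H : ℝ), State β ω Φ κ s M w Q H ∧ ‖w‖ ≤ ε ∧
      (Q : ℝ) * ‖w‖ ≤ ε ∧ Real.exp (2 * H) * ‖w‖ ≤ ε) {ε : ℝ} (hε : 0 < ε) :
    ∃ (n : ℕ) (a ξ : Fin n → ℝ),
      ∑ j, ∑ l, a j * a l * Φ (ξ j - ξ l) - 2 * ∑ j, a j * Φ (ξ j) + 1 ≤ ε ∧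
      ∑ j, ∑ l, a j * a l * Real.exp (-(ξ j - ξ l) ^ 2 / 2) ≤ ε := by
  have hC2 : 0 ≤ C2 β κ := by
    rw [C2]; have := one_le_Cb hβ; positivity
  -- choose η
  set η : ℝ := min 1 ε / (8 * (C2 β κ + 1)) with hη
  have hm : 0 < min 1 ε := lt_min one_pos hε
  have hm1 : min 1 ε ≤ 1 := min_le_left _ _
  have hmε : min 1 ε ≤ ε := min_le_right _ _
  have hηpos : 0 < η := by positivity
  have hη8 : η ≤ min 1 ε / 8 := by
    rw [hη]
    exact div_le_div_of_nonneg_left hm.le (by norm_num) (by linarith)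
  have hη1 : η ≤ 1 := by linarith
  have hCη : C2 β κ * η ≤ min 1 ε / 8 := by
    rw [hη, mul_div_assoc', div_le_div_iff₀ (by positivity) (by norm_num)]
    nlinarith
  set ε' : ℝ := η * min 1 ε / 400 with hε'
  have hε'pos : 0 < ε' := by positivity
  have hε'η : 4 * ε' ≤ η := by
    rw [hε']; nlinarith
  have hε'1 : ε' ≤ 1 / 400 := by rw [hε']; nlinarith
  obtain ⟨s, M, w, Q, H, hS, hwε, hQε, hHε⟩ := h0 ε' hε'pos
  have hw0 : 0 < ‖w‖ := lt_of_lt_of_le (by have : 0 < β := by linarith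
                                           positivity) hS.wlow
  set δ := ‖w‖ with hδ
  have hMQ' : (M : ℝ) ≤ 3 * Q := by exact_mod_cast hS.MQ
  have hM1 : (1 : ℝ) ≤ M := by exact_mod_cast hS.one_le
  have hMδ : (M : ℝ) * δ ≤ 3 * ε' := by
    have := mul_le_mul_of_nonneg_right hMQ' hw0.le
    linarith
  -- choose n
  have hD : 0 < 8 * (M : ℝ) * δ ^ 2 := by positivity
  set n : ℕ := ⌊η / (8 * M * δ ^ 2)⌋₊ with hn
  have hnle : (n : ℝ) * (8 * M * δ ^ 2) ≤ η := by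
    have := Nat.floor_le (a := η / (8 * M * δ ^ 2)) (by positivity)
    calc (n : ℝ) * (8 * M * δ ^ 2) ≤ η / (8 * M * δ ^ 2) * (8 * M * δ ^ 2) :=
          mul_le_mul_of_nonneg_right this hD.le
      _ = η := by field_simp
  have hnge : 2 * (24 * δ) ≤ η := by
    have : 48 * ε' ≤ η := by rw [hε']; nlinarith
    linarith
  have hngt : η / (48 * δ) ≤ n := by
    have h1 : η / (8 * M * δ ^ 2) < (n : ℝ) + 1 := Nat.lt_floor_add_one _
    have h2 : 8 * M * δ ^ 2 ≤ 24 * δ := by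
      have : (M : ℝ) * δ ≤ 3 := by linarith
      nlinarith
    have h3 : η / (24 * δ) ≤ η / (8 * M * δ ^ 2) :=
      div_le_div_of_nonneg_left hηpos.le hD h2
    have h4 : 1 ≤ η / (48 * δ) := by
      rw [le_div_iff₀ (by positivity)]; linarith
    have h5 : η / (24 * δ) = 2 * (η / (48 * δ)) := by field_simp; norm_num
    linarith
  have hn1 : (1 : ℝ) ≤ n := by
    refine le_trans ?_ hngt
    rw [le_div_iff₀ (by positivity)]; linarith
  have hn0 : (0 : ℝ) < n := by linarith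
  set e2H : ℝ := Real.exp (2 * H) with he2H
  have he2Hpos : 0 < e2H := Real.exp_pos _
  have hen : e2H / n ≤ min 1 ε / 8 := by
    rw [div_le_iff₀ hn0]
    have h1 : e2H ≤ ε' / δ := by rw [le_div_iff₀ hw0]; exact hHε
    have h2 : ε' / δ ≤ min 1 ε / 8 * (η / (48 * δ)) := by
      rw [hε', div_le_iff₀ hw0]
      have : min 1 ε / 8 * (η / (48 * δ)) * δ = η * min 1 ε / 384 := by field_simp; norm_num
      rw [this]
      have : 0 < η * min 1 ε := by positivity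
      linarith
    exact h1.trans (h2.trans (mul_le_mul_of_nonneg_left hngt (by positivity)))
  -- values
  have hP : ∀ j : Fin n, Real.exp (-H) ≤ |Φ (xi β s M j)| := fun j => hS.xi_low hη1 hnle j.2
  have hP0 : ∀ j : Fin n, Φ (xi β s M j) ≠ 0 := fun j h => by
    have := hP j
    rw [h, abs_zero] at this
    linarith [Real.exp_pos (-H)]
  have hinv : ∀ j : Fin n, |(Φ (xi β s M j))⁻¹| ≤ Real.exp H := fun j => by
    rw [abs_inv]
    have := inv_anti₀ (Real.exp_pos _) (hP j)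
    rwa [Real.exp_neg, inv_inv] at this
  set a : Fin n → ℝ := fun j => (n : ℝ)⁻¹ * (Φ (xi β s M j))⁻¹ with ha
  set ξ : Fin n → ℝ := fun j => xi β s M j with hξ
  have haP : ∀ j, a j * Φ (ξ j) = (n : ℝ)⁻¹ := fun j => by
    rw [ha, hξ]; dsimp only; field_simp [hP0 j]
  have haa : ∀ j l, |a j * a l| ≤ e2H / n ^ 2 := fun j l => by
    rw [ha]; dsimp only
    have e1 : (n : ℝ)⁻¹ * (Φ (xi β s M j))⁻¹ * ((n : ℝ)⁻¹ * (Φ (xi β s M l))⁻¹) =
        ((n : ℝ) ^ 2)⁻¹ * ((Φ (xi β s M j))⁻¹ * (Φ (xi β s M l))⁻¹) := by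
      rw [pow_two, mul_inv]; ring
    rw [e1, abs_mul, abs_mul (Φ (xi β s M j))⁻¹, abs_of_pos (by positivity : 0 < ((n : ℝ) ^ 2)⁻¹)]
    have h2 : |(Φ (xi β s M j))⁻¹| * |(Φ (xi β s M l))⁻¹| ≤ e2H := by
      rw [he2H, two_mul, Real.exp_add]
      exact mul_le_mul (hinv j) (hinv l) (abs_nonneg _) (Real.exp_pos _).le
    rw [div_eq_inv_mul]
    exact mul_le_mul_of_nonneg_left h2 (by positivity)
  have hsum1 : ∑ j, a j * Φ (ξ j) = 1 := by
    rw [Finset.sum_congr rfl fun j _ => haP j]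
    simp
    field_simp
  refine ⟨n, a, ξ, ?_, ?_⟩
  · -- μ part
    have hsum2 : ∑ j, ∑ l, a j * a l * (Φ (ξ j) * Φ (ξ l)) = 1 := by
      have : ∑ j, ∑ l, a j * a l * (Φ (ξ j) * Φ (ξ l)) =
          (∑ j, a j * Φ (ξ j)) * (∑ l, a l * Φ (ξ l)) := by
        rw [Finset.sum_mul_sum]
        exact Finset.sum_congr rfl fun j _ => Finset.sum_congr rfl fun l _ => by ring
      rw [this, hsum1, one_mul]
    set E : ℝ := C2 β κ * (δ + δ * M + η) with hE
    have hE0 : 0 ≤ E := by positivity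
    have hE1 : E ≤ min 1 ε / 4 := by
      have h1 : δ + δ * M + η ≤ 2 * η := by nlinarith
      have := mul_le_mul_of_nonneg_left h1 hC2
      linarith
    have hexpE : Real.exp E - 1 ≤ min 1 ε / 2 := by
      have h1 : |E| ≤ 1 := by rw [abs_of_nonneg hE0]; linarith
      have h2 := Real.abs_exp_sub_one_le h1
      rw [abs_of_nonneg hE0] at h2
      have h3 := le_abs_self (Real.exp E - 1)
      linarith
    have hexpE0 : 0 ≤ Real.exp E - 1 := by linarith [Real.add_one_le_exp E]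
    have hmain := double_sum_le (fun j l => a j * a l * (Φ (ξ j - ξ l) - Φ (ξ j) * Φ (ξ l)))
      (e2H / n ^ 2) ((Real.exp E - 1) / n ^ 2) (by positivity) (fun j => by
        have h1 : Φ (ξ j - ξ j) = 1 := by rw [sub_self]; exact hΦ.zero
        rw [h1]
        have h2 : 0 ≤ a j * a j := mul_self_nonneg _
        have h3 : 0 ≤ Φ (ξ j) * Φ (ξ j) := mul_self_nonneg _
        have h4 := (le_abs_self _).trans (haa j j)
        nlinarith) (fun j l hjl => by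
        have key : |Φ (ξ j - ξ l) - Φ (ξ j) * Φ (ξ l)| ≤ |Φ (ξ j)| * |Φ (ξ l)| * (Real.exp E - 1) := by
          rcases lt_trichotomy (j : ℕ) l with h | h | h
          · have h1 := State.xi_close hΦ hβ hω hκ hS (by linarith) hnle l.2 h
            have h2 : Φ (ξ j - ξ l) = Φ (xi β s M l - xi β s M j) := by
              rw [← hΦ.neg]; congr 1; rw [hξ]; ring
            rw [h2, mul_comm (Φ (ξ j)), mul_comm |Φ (ξ j)|]
            exact h1
          · exact absurd (Fin.ext h) hjl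
          · exact State.xi_close hΦ hβ hω hκ hS (by linarith) hnle j.2 h
        have h1 : a j * a l * (Φ (ξ j - ξ l) - Φ (ξ j) * Φ (ξ l)) ≤
            |a j * a l| * |Φ (ξ j - ξ l) - Φ (ξ j) * Φ (ξ l)| := by
          rw [← abs_mul]; exact le_abs_self _
        refine h1.trans ((mul_le_mul_of_nonneg_left key (abs_nonneg _)).trans (le_of_eq ?_))
        have h2 : |a j| * |Φ (ξ j)| = (n : ℝ)⁻¹ := by
          rw [← abs_mul, haP, abs_of_pos (by positivity)]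
        have h3 : |a l| * |Φ (ξ l)| = (n : ℝ)⁻¹ := by
          rw [← abs_mul, haP, abs_of_pos (by positivity)]
        rw [abs_mul]
        calc |a j| * |a l| * (|Φ (ξ j)| * |Φ (ξ l)| * (Real.exp E - 1))
            = (|a j| * |Φ (ξ j)|) * (|a l| * |Φ (ξ l)|) * (Real.exp E - 1) := by ring
          _ = (Real.exp E - 1) / n ^ 2 := by rw [h2, h3]; field_simp)
    have e1 : ∑ j, ∑ l, a j * a l * Φ (ξ j - ξ l) - 2 * ∑ j, a j * Φ (ξ j) + 1 =
        ∑ j, ∑ l, a j * a l * (Φ (ξ j - ξ l) - Φ (ξ j) * Φ (ξ l)) := by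
      have : ∑ j, ∑ l, a j * a l * (Φ (ξ j - ξ l) - Φ (ξ j) * Φ (ξ l)) =
          ∑ j, ∑ l, a j * a l * Φ (ξ j - ξ l) - ∑ j, ∑ l, a j * a l * (Φ (ξ j) * Φ (ξ l)) := by
        rw [← Finset.sum_sub_distrib]
        refine Finset.sum_congr rfl fun j _ => ?_
        rw [← Finset.sum_sub_distrib]
        exact Finset.sum_congr rfl fun l _ => by ring
      rw [this, hsum2, hsum1]; ring
    rw [e1]
    refine hmain.trans ?_
    have e2 : (n : ℝ) * (e2H / n ^ 2) = e2H / n := by field_simp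
    have e3 : (n : ℝ) ^ 2 * ((Real.exp E - 1) / n ^ 2) = Real.exp E - 1 := by field_simp
    rw [e2, e3]
    linarith
  · -- γ part
    have hmain := double_sum_le (fun j l => a j * a l * Real.exp (-(ξ j - ξ l) ^ 2 / 2))
      (e2H / n ^ 2) (e2H / n ^ 2 * (2 * δ ^ 2)) (by positivity) (fun j => by
        have h1 : Real.exp (-(ξ j - ξ j) ^ 2 / 2) = 1 := by simp
        rw [h1, mul_one]
        exact (le_abs_self _).trans (haa j j)) (fun j l hjl => by
        have hfar : 1 / δ ≤ |ξ j - ξ l| := by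
          rcases lt_trichotomy (j : ℕ) l with h | h | h
          · rw [abs_sub_comm]
            exact (State.xi_far hβ hS (by linarith) h).trans (le_abs_self _)
          · exact absurd (Fin.ext h) hjl
          · exact (State.xi_far hβ hS (by linarith) h).trans (le_abs_self _)
        have h2 : (1 / δ) ^ 2 ≤ (ξ j - ξ l) ^ 2 := by
          rw [← sq_abs (ξ j - ξ l)]
          exact pow_le_pow_left₀ (by positivity) hfar 2
        have h3 : Real.exp (-(ξ j - ξ l) ^ 2 / 2) ≤ 2 * δ ^ 2 := by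
          have h4 : -(ξ j - ξ l) ^ 2 / 2 = -((ξ j - ξ l) ^ 2 / 2) := by ring
          rw [h4, Real.exp_neg]
          have h5 : (1 / δ) ^ 2 / 2 ≤ Real.exp ((ξ j - ξ l) ^ 2 / 2) := by
            linarith [Real.add_one_le_exp ((ξ j - ξ l) ^ 2 / 2)]
          have h6 := inv_anti₀ (by positivity) h5
          refine h6.trans (le_of_eq ?_)
          field_simp
        have h7 := (le_abs_self _).trans (haa j l)
        have h8 : a j * a l * Real.exp (-(ξ j - ξ l) ^ 2 / 2) ≤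
            e2H / n ^ 2 * Real.exp (-(ξ j - ξ l) ^ 2 / 2) :=
          mul_le_mul_of_nonneg_right h7 (Real.exp_pos _).le
        exact h8.trans (mul_le_mul_of_nonneg_left h3 (by positivity)))
    refine hmain.trans ?_
    have e2 : (n : ℝ) * (e2H / n ^ 2) = e2H / n := by field_simp
    have e3 : (n : ℝ) ^ 2 * (e2H / n ^ 2 * (2 * δ ^ 2)) = 2 * (e2H * δ) * δ := by field_simp
    rw [e2, e3]
    have h9 : 2 * (e2H * δ) * δ ≤ min 1 ε / 2 := by
      have h10 : e2H * δ ≤ min 1 ε / 4 := by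
        refine hHε.trans ?_
        rw [hε']; nlinarith
      nlinarith [mul_nonneg he2Hpos.le hw0.le]
    linarith

/-- The main theorem, given initial states. -/
theorem mutuallySingular_of_states (hβ : 1 < β) (hω : ‖ω‖ = 1)
    (hT : ∀ j : ℤ, ∃ t : ℤ, β ^ j + β ^ (-j) + 2 * (ω ^ j).re = t)
    (hne : ∀ m : ℕ, 1 ≤ m → ω ^ m ≠ 1)
    (hinit : ∀ Φ : ℝ → ℝ, IsCosProd β Φ → ∃ κ > 0, ∀ ε > 0,
      ∃ (s : ℝ) (M : ℕ) (w : ℂ) (Q : ℕ) (H : ℝ), State β ω Φ κ s M w Q H ∧ ‖w‖ ≤ ε) :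
    (Crest.AnalysisR.bernoulliConvolution β⁻¹).MutuallySingular (volume : Measure ℝ) := by
  have := isProbabilityMeasure_bernoulliConvolution β hβ
  set μ := Crest.AnalysisR.bernoulliConvolution β⁻¹ with hμ
  set Φ : ℝ → ℝ := fun ξ => (charFun μ ξ).re with hΦdef
  have hΦ : IsCosProd β Φ := fun ξ => by
    have h1 := (Complex.continuous_re.tendsto _).comp (tendsto_prod_cos β hβ ξ)
    exact h1
  have hΦ' : ∀ t, charFun μ t = (Φ t : ℂ) := fun t => by
    have h1 := tendsto_prod_cos β hβ t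
    have h2 := (Complex.continuous_ofReal.tendsto _).comp (hΦ t)
    exact tendsto_nhds_unique h1 h2
  obtain ⟨κ, hκ, hin⟩ := hinit Φ hΦ
  have hst : ∀ ε > 0, ∃ (s : ℝ) (M : ℕ) (w : ℂ) (Q : ℕ) (H : ℝ),
      State β ω Φ κ s M w Q H ∧ ‖w‖ ≤ ε ∧
      (Q : ℝ) * ‖w‖ ≤ ε ∧ Real.exp (2 * H) * ‖w‖ ≤ ε :=
    fun ε hε => exists_states hΦ hβ hω hT hne hκ hin hε
  have hsing : μ ⟂ₘ gaussianReal 0 1 := by
    refine mutuallySingular_of_approx μ (gaussianReal 0 1) fun ε hε => ?_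
    obtain ⟨n, a, ξ, h1, h2⟩ := exists_trig hΦ hβ hω hκ hst hε
    refine ⟨fun x => ∑ j, (a j : ℂ) * Complex.exp ((ξ j * x : ℝ) * Complex.I),
      continuous_trig n a ξ, ⟨_, norm_trig_le n a ξ⟩, ?_, ?_⟩
    · rw [(trig_sums μ Φ hΦ' n a ξ).2]; exact h1
    · have hG : ∀ t, charFun (gaussianReal 0 1) t = ((Real.exp (-t ^ 2 / 2) : ℝ) : ℂ) := fun t => by
        rw [charFun_gaussianReal]
        push_cast
        congr 1
        simp
        ring
      rw [(trig_sums (gaussianReal 0 1) (fun t => Real.exp (-t ^ 2 / 2)) hG n a ξ).1]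
      exact h2
  exact hsing.mono_ac Measure.AbsolutelyContinuous.rfl
    (gaussianReal_absolutelyContinuous' 0 one_ne_zero)

end Crest.Agent.H24.Salem
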