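import Crest.Agent.H24.Salem.State
import Crest.Agent.H24.Salem.Algebra

/-!
Row 104 (S0137), part 8: the initial state.
-/

set_option autoImplicit false
open Filter Topology

namespace Crest.Agent.H24.Salem

variable {β : ℝ} {ω : ℂ} {Φ : ℝ → ℝ} {κ : ℝ} {s : ℝ} {M : ℕ} {w : ℂ}

/-- base resonance -/
theorem res_base (hT : ∀ j : ℤ, ∃ t : ℤ, β ^ j + β ^ (-j) + 2 * (ω ^ j).re = t) :
    Res β ω 1 0 1 := by
  refine ⟨one_pos, le_rfl, 1, Or.inl rfl, fun j => ?_⟩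
  obtain ⟨t, ht⟩ := hT j
  refine ⟨t, ?_⟩
  rw [← ht]
  simp

/-- recurrence: arbitrarily good return times, multiples of `R`. -/
theorem exists_return (hω : ‖ω‖ = 1) (R : ℕ) {ε : ℝ} (hε : 0 < ε) :
    ∃ m : ℕ, R ≤ m ∧ ‖1 - ω ^ m‖ ≤ ε := by
  obtain ⟨Q, hQ⟩ := exists_nat_gt ((R : ℝ) * (2 * Real.pi) / ε)
  have hpi := Real.pi_pos
  obtain ⟨m, hm1, -, hm⟩ := dirichlet hω (Nat.succ_pos Q)
  refine ⟨R * m, Nat.le_mul_of_pos_right _ hm1, ?_⟩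
  refine (norm_one_sub_pow_mul hω m R).trans ?_
  have h1 : (R : ℝ) * ‖1 - ω ^ m‖ ≤ R * (2 * Real.pi / ((Q.succ : ℝ) + 1)) :=
    mul_le_mul_of_nonneg_left hm (Nat.cast_nonneg _)
  refine h1.trans ?_
  rw [mul_div_assoc', div_le_iff₀ (by positivity)]
  rw [div_lt_iff₀ hε] at hQ
  push_cast
  nlinarith

/-- the cosines are bounded below -/
theorem exists_kappa (h : Res β ω s M w) (hβ : 1 < β) (hω : ‖ω‖ = 1) (hw : ‖w‖ ≤ 1 / 16)
    (hint : ∀ j : ℤ, IsIntegral ℤ (s * β ^ j)) :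
    ∃ κ > 0, ∀ j : ℤ, κ ≤ |Real.cos (Real.pi * (s * β ^ j))| := by
  have hβ0 : 0 < β := by linarith
  have hr0 : 0 < β⁻¹ := by positivity
  have hr1 : β⁻¹ < 1 := inv_lt_one_of_one_lt₀ hβ
  obtain ⟨J, hJ⟩ : ∃ J : ℕ, β⁻¹ ^ J < 1 / 8 := exists_pow_lt_of_lt_one (by norm_num) hr1
  have hpi := Real.pi_pos
  -- general bound
  have key : ∀ y : ℝ, |y| ≤ 1 / 4 → Real.cos (Real.pi / 4) ≤ |Real.cos (Real.pi * y)| := by
    intro y hy
    rw [← Real.cos_abs (Real.pi * y), abs_mul, abs_of_pos hpi]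
    refine le_trans ?_ (le_abs_self _)
    refine Real.cos_le_cos_of_nonneg_of_le_pi (by positivity) (by linarith) ?_
    nlinarith
  have hc4 : 0 < Real.cos (Real.pi / 4) := Real.cos_pos_of_mem_Ioo ⟨by linarith, by linarith⟩
  have hbig : ∀ j : ℤ, (M : ℤ) + J ≤ j → Real.cos (Real.pi / 4) ≤ |Real.cos (Real.pi * (s * β ^ j))| := by
    intro j hj
    obtain ⟨ρ, hρ, hj'⟩ := h.int
    obtain ⟨t, ht⟩ := hj' j
    rw [abs_cos_sub_int (x := s * β ^ j)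
      (y := ρ * (s * β ^ ((M : ℤ) - j)) + 2 * (w * ω ^ j).re) t (by linarith)]
    refine key _ ?_
    have h1 : |ρ * (s * β ^ ((M : ℤ) - j))| ≤ 1 / 8 := by
      have h2 : |ρ| = 1 := by rcases hρ with h | h <;> simp [h]
      rw [abs_mul, h2, one_mul, abs_of_pos (mul_pos h.pos (zpow_pos hβ0 _))]
      have h3 : β ^ ((M : ℤ) - j) ≤ β⁻¹ ^ J := by
        calc β ^ ((M : ℤ) - j) ≤ β ^ (-(J : ℤ)) := zpow_le_zpow_right₀ hβ.le (by omega)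
          _ = β⁻¹ ^ J := by rw [zpow_neg, zpow_natCast, inv_pow]
      have h4 : 0 < β ^ ((M : ℤ) - j) := zpow_pos hβ0 _
      nlinarith [h.le1]
    have h5 : |2 * (w * ω ^ j).re| ≤ 1 / 8 := by
      rw [abs_mul, abs_of_pos (by norm_num : (0:ℝ) < 2)]
      linarith [abs_re_mul_zpow_le hω w j]
    exact (abs_add_le _ _).trans (by linarith)
  have hsmall : ∀ j : ℤ, j ≤ -(J : ℤ) → Real.cos (Real.pi / 4) ≤ |Real.cos (Real.pi * (s * β ^ j))| := by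
    intro j hj
    refine key _ ?_
    rw [abs_of_pos (mul_pos h.pos (zpow_pos hβ0 _))]
    have h3 : β ^ j ≤ β⁻¹ ^ J := by
      calc β ^ j ≤ β ^ (-(J : ℤ)) := zpow_le_zpow_right₀ hβ.le (by omega)
        _ = β⁻¹ ^ J := by rw [zpow_neg, zpow_natCast, inv_pow]
    have h4 : 0 < β ^ j := zpow_pos hβ0 _
    nlinarith [h.le1]
  have hne : ∀ j : ℤ, 0 < |Real.cos (Real.pi * (s * β ^ j))| := by
    intro j
    rw [abs_pos]
    intro h0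
    rw [Real.cos_eq_zero_iff] at h0
    obtain ⟨k, hk⟩ := h0
    refine not_half _ (hint j) k ?_
    have : Real.pi * (s * β ^ j) = Real.pi * (k + 1 / 2) := by rw [hk]; ring
    exact mul_left_cancel₀ hpi.ne' this
  obtain ⟨j0, -, hj0⟩ := Finset.exists_min_image (Finset.Icc (-(J : ℤ)) ((M : ℤ) + J))
    (fun j => |Real.cos (Real.pi * (s * β ^ j))|) ⟨0, Finset.mem_Icc.2 ⟨by omega, by omega⟩⟩
  refine ⟨min (Real.cos (Real.pi / 4)) |Real.cos (Real.pi * (s * β ^ j0))|,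
    lt_min hc4 (hne j0), fun j => ?_⟩
  rcases le_or_gt ((M : ℤ) + J) j with h1 | h1
  · exact (min_le_left _ _).trans (hbig j h1)
  rcases le_or_gt j (-(J : ℤ)) with h2 | h2
  · exact (min_le_left _ _).trans (hsmall j h2)
  · exact (min_le_right _ _).trans (hj0 j (Finset.mem_Icc.2 ⟨h2.le, h1.le⟩))

theorem Phi_fr_zero_ne (hΦ : IsCosProd β Φ) (h : Res β ω s M w) (hβ : 1 < β)
    (hκ : 0 < κ) (hc : ∀ j : ℤ, κ ≤ |Real.cos (Real.pi * (s * β ^ j))|) :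
    Φ (fr β s 0) ≠ 0 := by
  have hβ0 : 0 < β := by linarith
  have hr0 : 0 < β⁻¹ := by positivity
  have hr1 : β⁻¹ < 1 := inv_lt_one_of_one_lt₀ hβ
  have hA : 0 < Real.pi / κ := div_pos Real.pi_pos hκ
  have h1 : Real.exp (-((Real.pi / κ) ^ 2 * Cb β)) ≤ |Φ (fr β s 0)| := by
    refine ge_of_tendsto (hΦ (fr β s 0)).abs (Eventually.of_forall fun K => ?_)
    rw [Finset.abs_prod]
    have h2 : ∀ n ∈ Finset.range K, Real.exp (-((Real.pi / κ) ^ 2 * β⁻¹ ^ n)) ≤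
        |Real.cos (fr β s 0 * β⁻¹ ^ n)| := by
      intro n _
      rw [fr_mul hβ]
      have hne : Real.cos (fr β s (0 - n)) ≠ 0 := by
        intro h0
        have := hc (0 - n)
        rw [fr] at h0
        rw [h0, abs_zero] at this
        linarith
      refine le_trans (Real.exp_le_exp.2 ?_) (abs_cos_ge_exp hne)
      have h3 := tau_le_pow h hβ hκ hc (0 - n)
      rw [tau_eq_fr] at h3
      have h4 : β ^ ((0 : ℤ) - n) = β⁻¹ ^ n := by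
        rw [zero_sub, zpow_neg, zpow_natCast, inv_pow]
      rw [h4] at h3
      have h5 : Real.tan (fr β s (0 - n)) ^ 2 ≤ (Real.pi / κ * β⁻¹ ^ n) ^ 2 := by
        rw [← sq_abs (Real.tan _)]
        exact pow_le_pow_left₀ (abs_nonneg _) h3 2
      have h6 : 0 ≤ β⁻¹ ^ n := by positivity
      have h7 : β⁻¹ ^ n ≤ 1 := pow_le_one₀ hr0.le hr1.le
      have h8 : (Real.pi / κ * β⁻¹ ^ n) ^ 2 ≤ (Real.pi / κ) ^ 2 * β⁻¹ ^ n := by
        rw [mul_pow]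
        exact mul_le_mul_of_nonneg_left (by nlinarith) (by positivity)
      have h9 : 0 ≤ Real.tan (fr β s (0 - n)) ^ 2 := sq_nonneg _
      linarith
    refine le_trans ?_ (Finset.prod_le_prod (fun _ _ => (Real.exp_pos _).le) h2)
    rw [← Real.exp_sum]
    refine Real.exp_le_exp.2 ?_
    rw [Finset.sum_neg_distrib, ← Finset.mul_sum]
    have h3 := geom_le hr0.le hr1 K
    have h4 : 1 / (1 - β⁻¹) = Cb β := rfl
    rw [h4] at h3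
    have := mul_le_mul_of_nonneg_left h3 (sq_nonneg (Real.pi / κ))
    linarith
  intro h0
  rw [h0, abs_zero] at h1
  linarith [Real.exp_pos (-((Real.pi / κ) ^ 2 * Cb β))]

theorem Phi_fr_ne (hΦ : IsCosProd β Φ) (h : Res β ω s M w) (hβ : 1 < β)
    (hκ : 0 < κ) (hc : ∀ j : ℤ, κ ≤ |Real.cos (Real.pi * (s * β ^ j))|) (N : ℕ) :
    Φ (fr β s N) ≠ 0 := by
  induction N with
  | zero => exact_mod_cast Phi_fr_zero_ne hΦ h hβ hκ hc
  | succ N ih =>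
    push_cast
    rw [fr_succ hβ, hΦ.mul (by linarith), ← fr_succ hβ]
    refine mul_ne_zero ?_ ih
    intro h0
    have := hc ((N : ℤ) + 1)
    rw [fr] at h0
    rw [h0, abs_zero] at this
    linarith

set_option maxHeartbeats 1600000 in
theorem exists_initial (hΦ : IsCosProd β Φ) (hβ : 1 < β) (hω : ‖ω‖ = 1)
    (hT : ∀ j : ℤ, ∃ t : ℤ, β ^ j + β ^ (-j) + 2 * (ω ^ j).re = t)
    (hne : ∀ m : ℕ, 1 ≤ m → ω ^ m ≠ 1) (hint : ∀ j : ℤ, IsIntegral ℤ (β ^ j)) :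
    ∃ κ > 0, ∀ ε > 0, ∃ (s : ℝ) (M : ℕ) (w : ℂ) (Q : ℕ) (H : ℝ),
      State β ω Φ κ s M w Q H ∧ ‖w‖ ≤ ε := by
  have hβ0 : 0 < β := by linarith
  have hr0 : 0 < β⁻¹ := by positivity
  have hr1 : β⁻¹ < 1 := inv_lt_one_of_one_lt₀ hβ
  have hpi3 := Real.pi_gt_three
  have hpi4 := Real.pi_le_four
  -- R with β^{-R} ≤ 1/2
  obtain ⟨R, hR⟩ : ∃ R : ℕ, β⁻¹ ^ R < 1 / 2 := exists_pow_lt_of_lt_one (by norm_num) hr1
  have hpow2 : ∀ m : ℕ, R ≤ m → 2 ≤ β ^ m := by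
    intro m hm
    have h1 : β⁻¹ ^ m ≤ 1 / 2 := (pow_le_pow_of_le_one hr0.le hr1.le hm).trans hR.le
    rw [inv_pow] at h1
    have h2 := inv_anti₀ (by positivity) h1
    rwa [inv_inv, one_div, inv_inv] at h2
  -- first step
  obtain ⟨m1, hm1R, hm1⟩ := exists_return hω (R + 1) (ε := 1 / 16) (by norm_num)
  have hm11 : 1 ≤ m1 := by omega
  have hres1 := (res_base hT).step hβ hω hm11
  rw [one_mul, one_mul, zero_add] at hres1
  set s1 : ℝ := 1 - β⁻¹ ^ m1 with hs1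
  set w1 : ℂ := 1 - ω⁻¹ ^ m1 with hw1
  have hw1n : ‖w1‖ = ‖1 - ω ^ m1‖ := norm_one_sub_inv_pow hω m1
  have hw1le : ‖w1‖ ≤ 1 / 16 := by rw [hw1n]; exact hm1
  have hw1ge : β⁻¹ ^ m1 ≤ ‖w1‖ := by
    rw [hw1n]; exact norm_one_sub_ge hβ hω hT (hne _ hm11) (hpow2 _ (by omega))
  have hw1pos : 0 < ‖w1‖ := lt_of_lt_of_le (by positivity) hw1ge
  have hβm1 : β⁻¹ ^ m1 ≤ 1 / 2 := (pow_le_pow_of_le_one hr0.le hr1.le (by omega)).trans hR.le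
  have hint1 : ∀ j : ℤ, IsIntegral ℤ (s1 * β ^ j) := by
    intro j
    have e1 : s1 * β ^ j = β ^ j - β ^ (j - m1) := by
      rw [hs1, sub_mul, one_mul, zpow_sub₀ hβ0.ne' _ (m1 : ℤ), zpow_natCast, inv_pow]; field_simp
    rw [e1]
    exact (hint _).sub (hint _)
  obtain ⟨κ1, hκ1, hcos1⟩ := exists_kappa hres1 hβ hω hw1le hint1
  have hκ1le : κ1 ≤ 1 := (hcos1 0).trans (Real.abs_cos_le_one _)
  refine ⟨κ1 / 2, by positivity, fun ε hε => ?_⟩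
  -- thresholds
  set ε1 : ℝ := min (min ε 1) (κ1 / 100) with hε1
  have hε1pos : 0 < ε1 := lt_min (lt_min hε one_pos) (by positivity)
  have hε1a : ε1 ≤ ε := (min_le_left _ _).trans (min_le_left _ _)
  have hε1b : ε1 ≤ κ1 / 100 := min_le_right _ _
  obtain ⟨R2, hR2⟩ : ∃ R : ℕ, β⁻¹ ^ R < κ1 / 100 := exists_pow_lt_of_lt_one (by positivity) hr1
  -- R3 lower bound for m0
  set R3 : ℕ := R2 + m1 + R + 1 with hR3
  obtain ⟨j0, hj0mem, hj0⟩ := Finset.exists_min_image (Finset.Icc 1 R3) (fun m => ‖1 - ω ^ m‖)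
    ⟨1, Finset.mem_Icc.2 ⟨le_rfl, by omega⟩⟩
  have hj0pos : 0 < ‖1 - ω ^ j0‖ := by
    rw [norm_pos_iff, sub_ne_zero]
    exact (hne j0 (Finset.mem_Icc.1 hj0mem).1).symm
  obtain ⟨Q, hQ⟩ := exists_nat_gt (max (2 * Real.pi / ‖1 - ω ^ j0‖) (max (2 * Real.pi / ε1) m1))
  have hQa : 2 * Real.pi / ‖1 - ω ^ j0‖ < Q := (le_max_left _ _).trans_lt hQ
  have hQb : 2 * Real.pi / ε1 < Q := ((le_max_left _ _).trans (le_max_right _ _)).trans_lt hQ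
  have hQc : m1 < Q := by
    exact_mod_cast ((le_max_right _ _).trans (le_max_right _ _)).trans_lt hQ
  have hQpos : 0 < Q := by omega
  have hQr : (0 : ℝ) < Q := by exact_mod_cast hQpos
  obtain ⟨m0, hm0mem, hm0min⟩ := Finset.exists_min_image (Finset.Icc 1 Q) (fun m => ‖1 - ω ^ m‖)
    ⟨1, Finset.mem_Icc.2 ⟨le_rfl, hQpos⟩⟩
  have hm01 : 1 ≤ m0 := (Finset.mem_Icc.1 hm0mem).1
  have hm0Q : m0 ≤ Q := (Finset.mem_Icc.1 hm0mem).2
  obtain ⟨m2, hm21, hm2Q, hm2⟩ := dirichlet hω hQpos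
  have hm0le : ‖1 - ω ^ m0‖ ≤ 2 * Real.pi / (Q + 1) :=
    (hm0min m2 (Finset.mem_Icc.2 ⟨hm21, hm2Q⟩)).trans hm2
  have hm0lt1 : ‖1 - ω ^ m0‖ < ‖1 - ω ^ j0‖ := by
    refine lt_of_le_of_lt hm0le ?_
    rw [div_lt_iff₀ hj0pos] at hQa
    rw [div_lt_iff₀ (by positivity)]
    nlinarith
  have hm0lt2 : ‖1 - ω ^ m0‖ ≤ ε1 := by
    refine hm0le.trans ?_
    rw [div_lt_iff₀ hε1pos] at hQb
    rw [div_le_iff₀ (by positivity)]
    nlinarith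
  have hm0R3 : R3 < m0 := by
    by_contra hcon
    have := hj0 m0 (Finset.mem_Icc.2 ⟨hm01, by omega⟩)
    linarith
  -- second step with e = m0
  have h2e : 1 ≤ 2 * m0 := by omega
  have hres2 := hres1.step hβ hω h2e
  set s2 : ℝ := s1 * (1 - β⁻¹ ^ (2 * m0)) with hs2
  set w2 : ℂ := w1 * (1 - ω⁻¹ ^ (2 * m0)) with hw2
  have hw2n : ‖w2‖ = ‖w1‖ * ‖1 - ω ^ (2 * m0)‖ := by
    rw [hw2, norm_mul, norm_one_sub_inv_pow hω (2 * m0)]
  have hdouble : ‖1 - ω ^ (2 * m0)‖ ≤ 2 * ‖1 - ω ^ m0‖ := by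
    simpa using norm_one_sub_pow_mul hω m0 2
  have hw2le : ‖w2‖ ≤ 1 / 8 * ‖1 - ω ^ m0‖ := by
    rw [hw2n]
    calc ‖w1‖ * ‖1 - ω ^ (2 * m0)‖ ≤ 1 / 16 * (2 * ‖1 - ω ^ m0‖) :=
          mul_le_mul hw1le hdouble (norm_nonneg _) (by norm_num)
      _ = 1 / 8 * ‖1 - ω ^ m0‖ := by ring
  have hm0n : 0 ≤ ‖1 - ω ^ m0‖ := norm_nonneg _
  have hw2ε : ‖w2‖ ≤ ε1 := by linarith
  have hβ2 : β⁻¹ ^ (2 * m0) ≤ 1 / 2 := (pow_le_pow_of_le_one hr0.le hr1.le (by omega)).trans hR.le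
  have hcos2 : ∀ j : ℤ, κ1 / 2 + 10 * ‖w2‖ ≤ |Real.cos (Real.pi * (s2 * β ^ j))| := by
    intro j
    refine le_trans ?_ (hres1.cos_step hβ hω κ1 hcos1 (by omega : m1 ≤ m0) j)
    have h1 : β⁻¹ ^ (m0 - m1) ≤ κ1 / 100 :=
      (pow_le_pow_of_le_one hr0.le hr1.le (by omega)).trans hR2.le
    have h2 : ‖w2‖ ≤ κ1 / 100 := hw2ε.trans hε1b
    have h3 : Real.pi * (β⁻¹ ^ (m0 - m1) + 2 * ‖w2‖) ≤ 4 * (3 * (κ1 / 100)) :=
      mul_le_mul hpi4 (by linarith) (by positivity) (by norm_num)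
    linarith
  have hwlow2 : β⁻¹ ^ (m1 + 2 * m0) ≤ ‖w2‖ := by
    rw [hw2n, pow_add]
    exact mul_le_mul hw1ge (norm_one_sub_ge hβ hω hT (hne _ h2e) (hpow2 _ (by omega)))
      (by positivity) hw1pos.le
  have hslow2 : β⁻¹ ^ (m1 + 2 * m0) ≤ s2 := by
    rw [pow_add, hs2]
    refine mul_le_mul ?_ ?_ (by positivity) hres1.pos.le
    · rw [hs1]; linarith
    · linarith
  have hcκ : ∀ j : ℤ, κ1 / 2 ≤ |Real.cos (Real.pi * (s2 * β ^ j))| := fun j => by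
    have := hcos2 j
    have h0 : 0 ≤ ‖w2‖ := norm_nonneg _
    linarith
  have hPhi := Phi_fr_ne hΦ hres2 hβ (by positivity : 0 < κ1 / 2) hcκ (m1 + 2 * m0)
  refine ⟨s2, m1 + 2 * m0, w2, Q,
    -Real.log (|Φ (fr β s2 ((m1 + 2 * m0 : ℕ) : ℤ))| *
      Real.exp (-((Real.pi / (κ1 / 2)) ^ 2 * (Cb β + 4)))),
    ⟨hres2, hcos2, hwlow2, hslow2, ?_, by omega, by omega, ?_, ?_⟩, hw2ε.trans hε1a⟩
  · intro m hm1' hmQ
    refine le_trans ?_ (hm0min m (Finset.mem_Icc.2 ⟨hm1', hmQ⟩))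
    linarith
  · have h1 : (Q : ℝ) * ‖w2‖ ≤ Q * (1 / 8 * (2 * Real.pi / (Q + 1))) :=
      mul_le_mul_of_nonneg_left (by linarith) hQr.le
    refine h1.trans ?_
    have h2 : (Q : ℝ) * (1 / 8 * (2 * Real.pi / (Q + 1))) = Q * (Real.pi / 4) / (Q + 1) := by ring
    rw [h2, div_le_one (by positivity)]
    nlinarith
  · intro N hN
    rw [neg_neg, Real.exp_log (mul_pos (abs_pos.2 hPhi) (Real.exp_pos _))]
    exact all_lower hΦ hres2 hβ hω (by positivity) hcκ N hN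

end Crest.Agent.H24.Salem
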