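import Crest.Agent.H24.Salem.State

/-!
Row 104 (S0137), part 6: iterating the bootstrap.
-/

set_option autoImplicit false
open Filter Topology

namespace Crest.Agent.H24.Salem

variable {β : ℝ} {ω : ℂ} {Φ : ℝ → ℝ} {κ : ℝ}

theorem c0_nonneg (hβ : 1 < β) (κ : ℝ) : 0 ≤ c0 β κ := by
  have := one_le_Cb hβ
  rw [c0, C2]; positivity

theorem log_step {δ δ' : ℝ} (hδ0 : 0 < δ) (hδ : δ ≤ 1 / 10 ^ 6) (hδ'0 : 0 < δ')
    (h : δ' ≤ 256 * Real.pi * δ ^ 3) : 5 / 2 * (-Real.log δ) ≤ -Real.log δ' := by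
  have hpi := Real.pi_pos
  have hpi' : Real.pi < 3.15 := Real.pi_lt_d2
  have h1 : Real.log δ' ≤ Real.log (256 * Real.pi * δ ^ 3) := Real.log_le_log hδ'0 h
  rw [Real.log_mul (by positivity) (by positivity), Real.log_pow] at h1
  have h2 : Real.log (256 * Real.pi) ≤ 3 * Real.log 10 := by
    have : 3 * Real.log 10 = Real.log (10 ^ 3) := by rw [Real.log_pow]; norm_num
    rw [this]
    exact Real.log_le_log (by positivity) (by linarith)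
  have h3 : Real.log δ ≤ - (6 * Real.log 10) := by
    have h4 : Real.log δ ≤ Real.log (1 / 10 ^ 6) := Real.log_le_log hδ0 hδ
    rw [Real.log_div (by norm_num) (by norm_num), Real.log_one, Real.log_pow] at h4
    push_cast at h4
    linarith
  push_cast at h1
  linarith

theorem iterate (hΦ : IsCosProd β Φ) (hβ : 1 < β) (hω : ‖ω‖ = 1)
    (hT : ∀ j : ℤ, ∃ t : ℤ, β ^ j + β ^ (-j) + 2 * (ω ^ j).re = t)
    (hne : ∀ m : ℕ, 1 ≤ m → ω ^ m ≠ 1) (hκ : 0 < κ) {δ1 : ℝ} (hδ1 : δ1 ≤ 1 / 10 ^ 6)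
    (hδ2 : 3 * (Real.pi / κ) ^ 2 * δ1 ≤ 1 / 2) {ρ : ℝ}
    (h0 : ∃ (s : ℝ) (M : ℕ) (w : ℂ) (Q : ℕ) (H : ℝ), State β ω Φ κ s M w Q H ∧ ‖w‖ ≤ δ1 ∧
      H + c0 β κ ≤ ρ * (-Real.log ‖w‖)) (k : ℕ) :
    ∃ (s : ℝ) (M : ℕ) (w : ℂ) (Q : ℕ) (H : ℝ), State β ω Φ κ s M w Q H ∧ ‖w‖ ≤ δ1 ∧
      H + c0 β κ ≤ (4 / 5) ^ k * ρ * (-Real.log ‖w‖) := by
  induction k with
  | zero => simpa using h0
  | succ k ih =>
    obtain ⟨s, M, w, Q, H, hS, hw, hH⟩ := ih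
    have hA : 0 ≤ 3 * (Real.pi / κ) ^ 2 := by positivity
    have hw0 : 0 < ‖w‖ := lt_of_lt_of_le (by positivity) hS.wlow
    obtain ⟨s', M', w', Q', hS', hw', -⟩ := hS.next hΦ hβ hω hT hne hκ
      ((mul_le_mul_of_nonneg_left hw hA).trans hδ2) (hw.trans hδ1)
    have hw'0 : 0 < ‖w'‖ := lt_of_lt_of_le (by positivity) hS'.wlow
    have hL := log_step hw0 (hw.trans hδ1) hw'0 hw'
    have hlog0 : 0 ≤ -Real.log ‖w‖ := by
      have := Real.log_nonpos hw0.le (by linarith [hw.trans hδ1])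
      linarith
    refine ⟨s', M', w', Q', _, hS', ?_, ?_⟩
    · have h3 : Real.log ‖w'‖ ≤ Real.log ‖w‖ := by linarith
      exact ((Real.log_le_log_iff hw'0 hw0).1 h3).trans hw
    · -- 2H + c0 + c0 = 2 (H + c0) ≤ 2 ρ_k L ≤ (4/5) ρ_k L'
      rcases le_or_gt 0 ((4 / 5 : ℝ) ^ k * ρ) with hρ | hρ
      · have h4 : (4 / 5 : ℝ) ^ (k + 1) * ρ * (-Real.log ‖w'‖) =
            4 / 5 * (((4 / 5 : ℝ) ^ k * ρ) * (-Real.log ‖w'‖)) := by ring
        rw [h4]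
        have h5 := mul_le_mul_of_nonneg_left hL hρ
        linarith
      · -- then H + c0 ≤ 0 ... contradiction with H ≥ 0
        exfalso
        have h6 : H + c0 β κ ≤ 0 := hH.trans (mul_nonpos_of_nonpos_of_nonneg hρ.le hlog0)
        have h7 := hS.low 0 (by simp)
        have h8 : Real.exp (-H) ≤ 1 := h7.trans (hΦ.abs_le_one _)
        have h9 : 0 ≤ H := by
          have := Real.exp_le_one_iff.1 h8
          linarith
        have h10 := c0_nonneg hβ κ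
        have h11 : 0 < c0 β κ := by
          have := one_le_Cb hβ
          have hA' : 0 < Real.pi / κ := div_pos Real.pi_pos hκ
          rw [c0, C2]; positivity
        linarith

theorem exists_states (hΦ : IsCosProd β Φ) (hβ : 1 < β) (hω : ‖ω‖ = 1)
    (hT : ∀ j : ℤ, ∃ t : ℤ, β ^ j + β ^ (-j) + 2 * (ω ^ j).re = t)
    (hne : ∀ m : ℕ, 1 ≤ m → ω ^ m ≠ 1) (hκ : 0 < κ)
    (h0 : ∀ ε > 0, ∃ (s : ℝ) (M : ℕ) (w : ℂ) (Q : ℕ) (H : ℝ),
      State β ω Φ κ s M w Q H ∧ ‖w‖ ≤ ε) {ε : ℝ} (hε : 0 < ε) :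
    ∃ (s : ℝ) (M : ℕ) (w : ℂ) (Q : ℕ) (H : ℝ), State β ω Φ κ s M w Q H ∧ ‖w‖ ≤ ε ∧
      (Q : ℝ) * ‖w‖ ≤ ε ∧ Real.exp (2 * H) * ‖w‖ ≤ ε := by
  have hA : 0 < 3 * (Real.pi / κ) ^ 2 := by
    have : 0 < Real.pi / κ := div_pos Real.pi_pos hκ
    positivity
  have hpi4 := Real.pi_le_four
  set δ1 : ℝ := min (1 / 10 ^ 6) (min (1 / 2 / (3 * (Real.pi / κ) ^ 2)) (ε / 256)) with hδ1
  have hδ1pos : 0 < δ1 := by
    rw [hδ1]; refine lt_min (by norm_num) (lt_min (by positivity) (by positivity))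
  have hδ1a : δ1 ≤ 1 / 10 ^ 6 := min_le_left _ _
  have hδ1b : 3 * (Real.pi / κ) ^ 2 * δ1 ≤ 1 / 2 := by
    have : δ1 ≤ 1 / 2 / (3 * (Real.pi / κ) ^ 2) := (min_le_right _ _).trans (min_le_left _ _)
    calc 3 * (Real.pi / κ) ^ 2 * δ1 ≤ 3 * (Real.pi / κ) ^ 2 * (1 / 2 / (3 * (Real.pi / κ) ^ 2)) :=
          mul_le_mul_of_nonneg_left this hA.le
      _ = 1 / 2 := by field_simp
  have hδ1c : δ1 ≤ ε / 256 := (min_le_right _ _).trans (min_le_right _ _)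
  obtain ⟨s, M, w, Q, H, hS, hw⟩ := h0 δ1 hδ1pos
  have hw0 : 0 < ‖w‖ := lt_of_lt_of_le (by have : 0 < β := by linarith
                                           positivity) hS.wlow
  have hlog : 0 < -Real.log ‖w‖ := by
    have := Real.log_neg hw0 (by linarith [hw.trans hδ1a])
    linarith
  set ρ : ℝ := |H + c0 β κ| / (-Real.log ‖w‖) with hρ
  have hρ0 : 0 ≤ ρ := by positivity
  have h1 : H + c0 β κ ≤ ρ * (-Real.log ‖w‖) := by
    rw [hρ, div_mul_cancel₀ _ hlog.ne']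
    exact le_abs_self _
  obtain ⟨k, hk⟩ : ∃ k : ℕ, (4 / 5 : ℝ) ^ k * ρ ≤ 1 / 4 := by
    have ht : Tendsto (fun k : ℕ => (4 / 5 : ℝ) ^ k * ρ) atTop (𝓝 (0 * ρ)) :=
      (tendsto_pow_atTop_nhds_zero_of_lt_one (by norm_num) (by norm_num)).mul_const ρ
    rw [zero_mul] at ht
    exact ((ht.eventually (ge_mem_nhds (by norm_num : (0:ℝ) < 1 / 4))).exists)
  obtain ⟨s1, M1, w1, Q1, H1, hS1, hw1, hH1⟩ :=
    iterate hΦ hβ hω hT hne hκ hδ1a hδ1b ⟨s, M, w, Q, H, hS, hw, h1⟩ k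
  have hw10 : 0 < ‖w1‖ := lt_of_lt_of_le (by have : 0 < β := by linarith
                                             positivity) hS1.wlow
  obtain ⟨s2, M2, w2, Q2, hS2, hw2, hQ2⟩ := hS1.next hΦ hβ hω hT hne hκ
      ((mul_le_mul_of_nonneg_left hw1 hA.le).trans hδ1b) (hw1.trans hδ1a)
  have hw20 : 0 < ‖w2‖ := lt_of_lt_of_le (by have : 0 < β := by linarith
                                             positivity) hS2.wlow
  have hL := log_step hw10 (hw1.trans hδ1a) hw20 hw2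
  have hlog1 : 0 ≤ -Real.log ‖w1‖ := by
    have := Real.log_nonpos hw10.le (by linarith [hw1.trans hδ1a])
    linarith
  have hw21 : ‖w2‖ ≤ ‖w1‖ := by
    have h3 : Real.log ‖w2‖ ≤ Real.log ‖w1‖ := by linarith
    exact (Real.log_le_log_iff hw20 hw10).1 h3
  refine ⟨s2, M2, w2, Q2, _, hS2, ?_, ?_, ?_⟩
  · linarith [hw21.trans (hw1.trans hδ1c)]
  · refine hQ2.trans ?_
    have : ‖w1‖ ≤ ε / 256 := hw1.trans hδ1c
    have h64 : 64 * Real.pi ≤ 256 := by linarith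
    calc 64 * Real.pi * ‖w1‖ ≤ 256 * (ε / 256) :=
          mul_le_mul h64 this hw10.le (by norm_num)
      _ = ε := by ring
  · -- exp(2H2) ‖w2‖ ≤ ‖w1‖
    have h5 : H1 + c0 β κ ≤ 1 / 4 * (-Real.log ‖w1‖) :=
      hH1.trans (mul_le_mul_of_nonneg_right hk hlog1)
    have hc0 := c0_nonneg hβ κ
    have h6 : Real.exp (2 * (2 * H1 + c0 β κ)) * ‖w2‖ ≤ ‖w1‖ := by
      rw [← Real.exp_log hw20, ← Real.exp_add]
      have h7 : 2 * (2 * H1 + c0 β κ) + Real.log ‖w2‖ ≤ Real.log ‖w1‖ := by linarith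
      calc Real.exp (2 * (2 * H1 + c0 β κ) + Real.log ‖w2‖) ≤ Real.exp (Real.log ‖w1‖) :=
            Real.exp_le_exp.2 h7
        _ = ‖w1‖ := Real.exp_log hw10
    linarith [hw1.trans hδ1c]

end Crest.Agent.H24.Salem
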