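import Crest.Agent.H24.Salem.TanSum

/-!
Row 104 (S0137), part 4: the rotation `ω`.
-/

set_option autoImplicit false
open Filter Topology

namespace Crest.Agent.H24.Salem

theorem norm_one_sub_inv_pow {ω : ℂ} (hω : ‖ω‖ = 1) (m : ℕ) : ‖1 - ω⁻¹ ^ m‖ = ‖1 - ω ^ m‖ := by
  have hω0 : ω ≠ 0 := by
    intro h0; rw [h0, norm_zero] at hω; exact zero_ne_one hω
  have h1 : 1 - ω⁻¹ ^ m = -(ω⁻¹ ^ m * (1 - ω ^ m)) := by
    rw [mul_sub, mul_one, ← mul_pow, inv_mul_cancel₀ hω0, one_pow]; ring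
  rw [h1, norm_neg, norm_mul, norm_pow, norm_inv, hω, inv_one, one_pow, one_mul]

theorem norm_one_sub_pow_mul {ω : ℂ} (hω : ‖ω‖ = 1) (m k : ℕ) :
    ‖1 - ω ^ (k * m)‖ ≤ k * ‖1 - ω ^ m‖ := by
  induction k with
  | zero => simp
  | succ k ih =>
    have h1 : 1 - ω ^ ((k + 1) * m) = (1 - ω ^ (k * m)) + ω ^ (k * m) * (1 - ω ^ m) := by
      rw [add_mul, one_mul, pow_add]; ring
    rw [h1]
    refine (norm_add_le _ _).trans ?_
    rw [norm_mul, norm_pow, hω, one_pow, one_mul]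
    push_cast
    linarith

theorem dirichlet {ω : ℂ} (hω : ‖ω‖ = 1) {Q : ℕ} (hQ : 0 < Q) :
    ∃ m : ℕ, 1 ≤ m ∧ m ≤ Q ∧ ‖1 - ω ^ m‖ ≤ 2 * Real.pi / (Q + 1) := by
  have hpi := Real.pi_pos
  obtain ⟨m, hm0, hmQ, hm⟩ := Real.exists_nat_abs_mul_sub_round_le (Complex.arg ω / (2 * Real.pi)) hQ
  refine ⟨m, hm0, hmQ, ?_⟩
  set ξ := Complex.arg ω / (2 * Real.pi) with hξ
  set k := round ((m : ℝ) * ξ) with hk
  have e1 : ω = Complex.exp ((Complex.arg ω : ℝ) * Complex.I) := by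
    have := Complex.norm_mul_exp_arg_mul_I ω
    rw [hω] at this
    simpa using this.symm
  have e2 : ω ^ m = Complex.exp (((2 * Real.pi * ((m : ℝ) * ξ - k) : ℝ) : ℂ) * Complex.I) := by
    have e3 : ω ^ m = Complex.exp (m * ((Complex.arg ω : ℝ) * Complex.I)) := by
      rw [Complex.exp_nat_mul, ← e1]
    rw [e3, Complex.exp_eq_exp_iff_exists_int]
    refine ⟨k, ?_⟩
    have : (2 * Real.pi * ((m : ℝ) * ξ - k) : ℝ) = m * Complex.arg ω - 2 * Real.pi * k := by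
      rw [hξ]; field_simp
    rw [this]
    push_cast
    ring
  rw [e2]
  have h3 := Real.norm_exp_I_mul_ofReal_sub_one_le (x := 2 * Real.pi * ((m : ℝ) * ξ - k))
  rw [norm_sub_rev, mul_comm _ Complex.I]
  refine h3.trans ?_
  rw [Real.norm_eq_abs, abs_mul, abs_of_pos (by positivity : (0:ℝ) < 2 * Real.pi)]
  calc 2 * Real.pi * |(m : ℝ) * ξ - k| ≤ 2 * Real.pi * (1 / (Q + 1)) :=
        mul_le_mul_of_nonneg_left hm (by positivity)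
    _ = 2 * Real.pi / (Q + 1) := by ring

/-- `|1 - ω^m| ≥ β^{-m}` by integrality of the norm. -/
theorem norm_one_sub_ge {β : ℝ} (hβ : 1 < β) {ω : ℂ} (hω : ‖ω‖ = 1)
    (hT : ∀ j : ℤ, ∃ t : ℤ, β ^ j + β ^ (-j) + 2 * (ω ^ j).re = t) {m : ℕ}
    (hne : ω ^ m ≠ 1) (hm : 2 ≤ β ^ m) : β⁻¹ ^ m ≤ ‖1 - ω ^ m‖ := by
  have hβ0 : 0 < β := by linarith
  obtain ⟨t1, ht1⟩ := hT m
  obtain ⟨t2, ht2⟩ := hT (2 * m : ℕ)
  rw [zpow_neg, zpow_natCast, zpow_natCast] at ht1 ht2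
  set x := β ^ m with hx
  have hx0 : 0 < x := by positivity
  have hb2 : β ^ (2 * m) = x ^ 2 := by rw [hx, mul_comm, pow_mul]
  have hw2 : ω ^ (2 * m) = (ω ^ m) ^ 2 := by rw [mul_comm, pow_mul]
  set z := ω ^ m with hz
  have hznorm : ‖z‖ = 1 := by rw [hz, norm_pow, hω, one_pow]
  have hzn : z.re ^ 2 + z.im ^ 2 = 1 := by
    have := Complex.sq_norm z
    rw [hznorm, Complex.normSq_apply] at this
    nlinarith
  have hz2 : (z ^ 2).re = 2 * z.re ^ 2 - 1 := by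
    rw [pow_two, Complex.mul_re]; nlinarith
  rw [hb2, hw2, hz2] at ht2
  have hn : ‖1 - z‖ ^ 2 = 2 - 2 * z.re := by
    rw [Complex.sq_norm, Complex.normSq_apply]
    simp only [Complex.sub_re, Complex.one_re, Complex.sub_im, Complex.one_im]
    nlinarith
  have hpos : 0 < ‖1 - z‖ ^ 2 := by
    have : 1 - z ≠ 0 := fun h => hne (sub_eq_zero.1 h).symm
    positivity
  -- integer
  have hxi : 0 < x + x⁻¹ - 2 := by
    have h1 : x + x⁻¹ - 2 = (x - 1) ^ 2 / x := by field_simp; ring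
    rw [h1]
    have : 0 < (x - 1) ^ 2 := by nlinarith
    positivity
  have hint : 2 * ((x + x⁻¹ - 2) * ‖1 - z‖ ^ 2) = ((4 * t1 - t1 ^ 2 + t2 - 4 : ℤ) : ℝ) := by
    push_cast
    rw [← ht1, ← ht2, hn]
    have h1 : (x ^ 2)⁻¹ = x⁻¹ ^ 2 := by rw [inv_pow]
    have h2 : x * x⁻¹ = 1 := mul_inv_cancel₀ hx0.ne'
    rw [h1]
    linear_combination 2 * h2
  have hge : (1 : ℝ) ≤ 2 * ((x + x⁻¹ - 2) * ‖1 - z‖ ^ 2) := by
    have h1 : 0 < 2 * ((x + x⁻¹ - 2) * ‖1 - z‖ ^ 2) := by positivity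
    rw [hint] at h1 ⊢
    have h2 : (0 : ℤ) < 4 * t1 - t1 ^ 2 + t2 - 4 := by exact_mod_cast h1
    have h3 : (1 : ℤ) ≤ 4 * t1 - t1 ^ 2 + t2 - 4 := h2
    exact_mod_cast h3
  have hxx : x + x⁻¹ - 2 ≤ x := by
    have : x⁻¹ ≤ 1 := inv_le_one_of_one_le₀ (by linarith)
    linarith
  have h5 : 1 ≤ 2 * (x * ‖1 - z‖ ^ 2) := by
    have := mul_le_mul_of_nonneg_right hxx hpos.le
    linarith
  have h6 : (x⁻¹) ^ 2 ≤ ‖1 - z‖ ^ 2 := by
    have h7 : (x⁻¹) ^ 2 * (2 * x) ≤ 1 := by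
      have : (x⁻¹) ^ 2 * (2 * x) = 2 * x⁻¹ := by field_simp
      rw [this]
      have : x⁻¹ ≤ 2⁻¹ := inv_anti₀ (by norm_num) hm
      linarith
    have h8 : (x⁻¹) ^ 2 * (2 * x) ≤ ‖1 - z‖ ^ 2 * (2 * x) := by linarith
    exact le_of_mul_le_mul_right h8 (by positivity)
  have h9 : x⁻¹ ≤ ‖1 - z‖ := abs_le_of_sq_le_sq' h6 (norm_nonneg _) |>.2
  rwa [inv_pow]

end Crest.Agent.H24.Salem
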