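import Mathlib

/-!
Row 104 (S0137), part 1: infinite cosine products.
-/

set_option autoImplicit false
open Filter Topology

namespace Crest.Agent.H24.Salem

/-- `Φ ξ` is the limit of the finite products `∏ cos (ξ β⁻ⁿ)`. -/
def IsCosProd (β : ℝ) (Φ : ℝ → ℝ) : Prop :=
  ∀ ξ : ℝ, Tendsto (fun K : ℕ => ∏ n ∈ Finset.range K, Real.cos (ξ * β⁻¹ ^ n)) atTop (𝓝 (Φ ξ))

theorem IsCosProd.abs_le_one {β : ℝ} {Φ : ℝ → ℝ} (h : IsCosProd β Φ) (ξ : ℝ) : |Φ ξ| ≤ 1 := by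
  have h1 := (h ξ).abs
  refine le_of_tendsto h1 (Eventually.of_forall fun K => ?_)
  rw [Finset.abs_prod]
  exact Finset.prod_le_one (fun _ _ => abs_nonneg _) (fun _ _ => Real.abs_cos_le_one _)

theorem IsCosProd.zero {β : ℝ} {Φ : ℝ → ℝ} (h : IsCosProd β Φ) : Φ 0 = 1 := by
  have h1 := h 0
  have h2 : (fun K : ℕ => ∏ n ∈ Finset.range K, Real.cos ((0:ℝ) * β⁻¹ ^ n)) = fun _ => 1 := by
    funext K; simp
  rw [h2] at h1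
  exact tendsto_nhds_unique h1 tendsto_const_nhds

theorem IsCosProd.neg {β : ℝ} {Φ : ℝ → ℝ} (h : IsCosProd β Φ) (ξ : ℝ) : Φ (-ξ) = Φ ξ := by
  have h1 := h (-ξ)
  have h2 : (fun K : ℕ => ∏ n ∈ Finset.range K, Real.cos ((-ξ) * β⁻¹ ^ n)) =
      fun K : ℕ => ∏ n ∈ Finset.range K, Real.cos (ξ * β⁻¹ ^ n) := by
    funext K
    refine Finset.prod_congr rfl fun n _ => ?_
    rw [neg_mul, Real.cos_neg]
  rw [h2] at h1
  exact tendsto_nhds_unique h1 (h ξ)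

theorem IsCosProd.mul {β : ℝ} {Φ : ℝ → ℝ} (h : IsCosProd β Φ) (hβ : β ≠ 0) (ξ : ℝ) :
    Φ (β * ξ) = Real.cos (β * ξ) * Φ ξ := by
  have h1 := (h (β * ξ)).comp (tendsto_add_atTop_nat 1)
  have h2 : ((fun K : ℕ => ∏ n ∈ Finset.range K, Real.cos ((β * ξ) * β⁻¹ ^ n)) ∘ fun a => a + 1) =
      fun K : ℕ => Real.cos (β * ξ) * ∏ n ∈ Finset.range K, Real.cos (ξ * β⁻¹ ^ n) := by
    funext K
    simp only [Function.comp]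
    rw [Finset.prod_range_succ', mul_comm]
    congr 1
    · simp
    · refine Finset.prod_congr rfl fun n _ => ?_
      congr 1
      rw [pow_succ]
      field_simp
  rw [h2] at h1
  exact tendsto_nhds_unique h1 ((h ξ).const_mul _)

theorem one_sub_ge_exp {x : ℝ} (h0 : 0 ≤ x) (h1 : x ≤ 1 / 2) : Real.exp (-(2 * x)) ≤ 1 - x := by
  have h2 : 1 + 2 * x ≤ Real.exp (2 * x) := by linarith [Real.add_one_le_exp (2 * x)]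
  rw [Real.exp_neg]
  have h3 : (Real.exp (2 * x))⁻¹ ≤ (1 + 2 * x)⁻¹ := inv_anti₀ (by linarith) h2
  have h4 : (1 + 2 * x)⁻¹ ≤ 1 - x := by
    rw [inv_le_iff_one_le_mul₀ (by linarith)]
    nlinarith
  linarith

theorem prod_lower {ι : Type*} (s : Finset ι) (u : ι → ℝ) (hu : ∀ i ∈ s, |u i| ≤ 1 / 2) :
    Real.exp (-(2 * ∑ i ∈ s, |u i|)) ≤ |∏ i ∈ s, (1 + u i)| := by
  rw [Finset.abs_prod, Finset.mul_sum, ← Finset.sum_neg_distrib, Real.exp_sum]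
  refine Finset.prod_le_prod (fun _ _ => (Real.exp_pos _).le) fun i hi => ?_
  have h1 := one_sub_ge_exp (abs_nonneg (u i)) (hu i hi)
  have h2 : 1 - |u i| ≤ |1 + u i| := by
    have := abs_sub_abs_le_abs_sub (1 : ℝ) (-(u i))
    rw [abs_neg, abs_one, sub_neg_eq_add] at this
    exact this
  linarith

theorem prod_close {ι : Type*} (s : Finset ι) (u : ι → ℝ) :
    |∏ i ∈ s, (1 + u i) - 1| ≤ Real.exp (∑ i ∈ s, |u i|) - 1 := by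
  simpa [Real.norm_eq_abs] using Finset.norm_prod_one_add_sub_one_le s u

theorem cos_sub_eq {a b : ℝ} (ha : Real.cos a ≠ 0) (hb : Real.cos b ≠ 0) :
    Real.cos (a - b) = Real.cos a * Real.cos b * (1 + Real.tan a * Real.tan b) := by
  rw [Real.cos_sub, Real.tan_eq_sin_div_cos, Real.tan_eq_sin_div_cos]
  field_simp

theorem prod_cos_sub {β : ℝ} (ξ ζ : ℝ) (h1 : ∀ n : ℕ, Real.cos (ξ * β⁻¹ ^ n) ≠ 0)
    (h2 : ∀ n : ℕ, Real.cos (ζ * β⁻¹ ^ n) ≠ 0) (K : ℕ) :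
    ∏ n ∈ Finset.range K, Real.cos ((ξ - ζ) * β⁻¹ ^ n) =
      (∏ n ∈ Finset.range K, Real.cos (ξ * β⁻¹ ^ n)) * (∏ n ∈ Finset.range K, Real.cos (ζ * β⁻¹ ^ n)) *
        ∏ n ∈ Finset.range K, (1 + Real.tan (ξ * β⁻¹ ^ n) * Real.tan (ζ * β⁻¹ ^ n)) := by
  rw [← Finset.prod_mul_distrib, ← Finset.prod_mul_distrib]
  refine Finset.prod_congr rfl fun n _ => ?_
  rw [sub_mul, cos_sub_eq (h1 n) (h2 n)]

theorem IsCosProd.sub_close {β : ℝ} {Φ : ℝ → ℝ} (h : IsCosProd β Φ) (ξ ζ E : ℝ)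
    (h1 : ∀ n : ℕ, Real.cos (ξ * β⁻¹ ^ n) ≠ 0) (h2 : ∀ n : ℕ, Real.cos (ζ * β⁻¹ ^ n) ≠ 0)
    (hE : ∀ K : ℕ, ∑ n ∈ Finset.range K,
      |Real.tan (ξ * β⁻¹ ^ n) * Real.tan (ζ * β⁻¹ ^ n)| ≤ E) :
    |Φ (ξ - ζ) - Φ ξ * Φ ζ| ≤ |Φ ξ| * |Φ ζ| * (Real.exp E - 1) := by
  have hL := ((h (ξ - ζ)).sub ((h ξ).mul (h ζ))).abs
  have hR := ((h ξ).abs.mul (h ζ).abs).mul_const (Real.exp E - 1)
  refine le_of_tendsto_of_tendsto' hL hR fun K => ?_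
  rw [prod_cos_sub ξ ζ h1 h2 K]
  set a := ∏ n ∈ Finset.range K, Real.cos (ξ * β⁻¹ ^ n)
  set b := ∏ n ∈ Finset.range K, Real.cos (ζ * β⁻¹ ^ n)
  have h3 := prod_close (Finset.range K)
    (fun n => Real.tan (ξ * β⁻¹ ^ n) * Real.tan (ζ * β⁻¹ ^ n))
  have h4 : Real.exp (∑ n ∈ Finset.range K,
      |Real.tan (ξ * β⁻¹ ^ n) * Real.tan (ζ * β⁻¹ ^ n)|) ≤ Real.exp E := Real.exp_le_exp.2 (hE K)
  set p := ∏ n ∈ Finset.range K, (1 + Real.tan (ξ * β⁻¹ ^ n) * Real.tan (ζ * β⁻¹ ^ n))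
  have h5 : a * b * p - a * b = a * b * (p - 1) := by ring
  rw [h5, abs_mul, abs_mul]
  exact mul_le_mul_of_nonneg_left (by linarith) (by positivity)

theorem IsCosProd.sub_lower {β : ℝ} {Φ : ℝ → ℝ} (h : IsCosProd β Φ) (ξ ζ E : ℝ)
    (h1 : ∀ n : ℕ, Real.cos (ξ * β⁻¹ ^ n) ≠ 0) (h2 : ∀ n : ℕ, Real.cos (ζ * β⁻¹ ^ n) ≠ 0)
    (hu : ∀ n : ℕ, |Real.tan (ξ * β⁻¹ ^ n) * Real.tan (ζ * β⁻¹ ^ n)| ≤ 1 / 2)
    (hE : ∀ K : ℕ, ∑ n ∈ Finset.range K,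
      |Real.tan (ξ * β⁻¹ ^ n) * Real.tan (ζ * β⁻¹ ^ n)| ≤ E) :
    |Φ ξ| * |Φ ζ| * Real.exp (-(2 * E)) ≤ |Φ (ξ - ζ)| := by
  have hL := (h (ξ - ζ)).abs
  have hR := ((h ξ).abs.mul (h ζ).abs).mul_const (Real.exp (-(2 * E)))
  refine le_of_tendsto_of_tendsto' hR hL fun K => ?_
  rw [prod_cos_sub ξ ζ h1 h2 K]
  set a := ∏ n ∈ Finset.range K, Real.cos (ξ * β⁻¹ ^ n)
  set b := ∏ n ∈ Finset.range K, Real.cos (ζ * β⁻¹ ^ n)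
  have h3 := prod_lower (Finset.range K)
    (fun n => Real.tan (ξ * β⁻¹ ^ n) * Real.tan (ζ * β⁻¹ ^ n)) (fun n _ => hu n)
  have h4 : Real.exp (-(2 * E)) ≤ Real.exp (-(2 * ∑ n ∈ Finset.range K,
      |Real.tan (ξ * β⁻¹ ^ n) * Real.tan (ζ * β⁻¹ ^ n)|)) :=
    Real.exp_le_exp.2 (by linarith [hE K])
  rw [abs_mul, abs_mul]
  exact mul_le_mul_of_nonneg_left (by linarith) (by positivity)

end Crest.Agent.H24.Salem
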