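import Crest.Agent.H24.Salem.Prod

/-!
Row 104 (S0137), part 2: resonances.
-/

set_option autoImplicit false
open Filter Topology

namespace Crest.Agent.H24.Salem

/-- Resonance data: `s`, its conjugate `ρ s β^M` and the elliptic coordinate `w`. -/
structure Res (β : ℝ) (ω : ℂ) (s : ℝ) (M : ℕ) (w : ℂ) : Prop where
  pos : 0 < s
  le1 : s ≤ 1
  int : ∃ ρ : ℝ, (ρ = 1 ∨ ρ = -1) ∧ ∀ j : ℤ, ∃ t : ℤ,
    s * β ^ j + ρ * (s * β ^ ((M : ℤ) - j)) + 2 * (w * ω ^ j).re = t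

theorem abs_re_mul_zpow_le {ω : ℂ} (hω : ‖ω‖ = 1) (w : ℂ) (j : ℤ) : |(w * ω ^ j).re| ≤ ‖w‖ := by
  refine (Complex.abs_re_le_norm _).trans ?_
  rw [norm_mul, norm_zpow, hω, one_zpow, mul_one]

theorem abs_sin_le_of_sub_int {x y : ℝ} (t : ℤ) (h : x = t - y) :
    |Real.sin (Real.pi * x)| ≤ Real.pi * |y| := by
  have h1 : Real.pi * x = t * Real.pi - Real.pi * y := by rw [h]; ring
  rw [h1, Real.sin_int_mul_pi_sub, abs_neg, abs_mul]
  have h2 : |(-1 : ℝ) ^ t| = 1 := by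
    rw [abs_zpow, abs_neg, abs_one, one_zpow]
  rw [h2, one_mul]
  refine (Real.abs_sin_le_abs (x := Real.pi * y)).trans ?_
  rw [abs_mul, abs_of_pos Real.pi_pos]

theorem abs_cos_sub_int {x y : ℝ} (t : ℤ) (h : x = t - y) :
    |Real.cos (Real.pi * x)| = |Real.cos (Real.pi * y)| := by
  have h1 : Real.pi * x = t * Real.pi - Real.pi * y := by rw [h]; ring
  rw [h1, Real.cos_int_mul_pi_sub, abs_mul, abs_zpow, abs_neg, abs_one, one_zpow, one_mul]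

theorem abs_cos_ge {x y : ℝ} : |Real.cos (Real.pi * y)| - Real.pi * |x - y| ≤ |Real.cos (Real.pi * x)| := by
  have h1 : |Real.cos (Real.pi * y) - Real.cos (Real.pi * x)| ≤ |Real.pi * y - Real.pi * x| :=
    Real.abs_cos_sub_cos_le _ _
  have h2 := abs_sub_abs_le_abs_sub (Real.cos (Real.pi * y)) (Real.cos (Real.pi * x))
  have h3 : |Real.pi * y - Real.pi * x| = Real.pi * |x - y| := by
    rw [← mul_sub, abs_mul, abs_of_pos Real.pi_pos, abs_sub_comm]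
  linarith

variable {β : ℝ} {ω : ℂ} {s : ℝ} {M : ℕ} {w : ℂ}

theorem Res.sin_le (h : Res β ω s M w) (hβ : 1 < β) (hω : ‖ω‖ = 1) (j : ℤ) :
    |Real.sin (Real.pi * (s * β ^ j))| ≤ Real.pi * (β ^ ((M : ℤ) - j) + 2 * ‖w‖) := by
  obtain ⟨ρ, hρ, hj⟩ := h.int
  obtain ⟨t, ht⟩ := hj j
  have h1 := abs_sin_le_of_sub_int (x := s * β ^ j)
    (y := ρ * (s * β ^ ((M : ℤ) - j)) + 2 * (w * ω ^ j).re) t (by linarith)
  refine h1.trans (mul_le_mul_of_nonneg_left ?_ Real.pi_pos.le)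
  refine (abs_add_le _ _).trans (add_le_add ?_ ?_)
  · have h2 : |ρ| = 1 := by rcases hρ with h | h <;> simp [h]
    rw [abs_mul, h2, one_mul, abs_of_pos (mul_pos h.pos (zpow_pos (by linarith) _))]
    have : 0 < β ^ ((M : ℤ) - j) := zpow_pos (by linarith) _
    nlinarith [h.le1]
  · rw [abs_mul, abs_of_pos (by norm_num : (0:ℝ) < 2)]
    linarith [abs_re_mul_zpow_le hω w j]

theorem Res.sin_le' (h : Res β ω s M w) (hβ : 1 < β) (j : ℤ) :
    |Real.sin (Real.pi * (s * β ^ j))| ≤ Real.pi * β ^ j := by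
  have hp : 0 < β ^ j := zpow_pos (by linarith) _
  refine (Real.abs_sin_le_abs (x := Real.pi * (s * β ^ j))).trans ?_
  rw [abs_of_pos (mul_pos Real.pi_pos (mul_pos h.pos hp))]
  refine mul_le_mul_of_nonneg_left ?_ Real.pi_pos.le
  nlinarith [h.le1]

/-- one step `z ↦ z (1 - A^{-m})` -/
theorem Res.step (h : Res β ω s M w) (hβ : 1 < β) (hω : ‖ω‖ = 1) {m : ℕ} (hm : 1 ≤ m) :
    Res β ω (s * (1 - β⁻¹ ^ m)) (M + m) (w * (1 - ω⁻¹ ^ m)) := by
  have hβ0 : 0 < β := by linarith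
  have hω0 : ω ≠ 0 := by
    intro h0; rw [h0, norm_zero] at hω; exact zero_ne_one hω
  have h1 : β⁻¹ ^ m < 1 := pow_lt_one₀ (by positivity) (inv_lt_one_of_one_lt₀ hβ) (by omega)
  have h2 : 0 < β⁻¹ ^ m := by positivity
  refine ⟨mul_pos h.pos (by linarith), ?_, ?_⟩
  · nlinarith [h.le1, h.pos]
  · obtain ⟨ρ, hρ, hj⟩ := h.int
    refine ⟨-ρ, ?_, fun j => ?_⟩
    · rcases hρ with h | h <;> simp [h]
    · obtain ⟨t, ht⟩ := hj j
      obtain ⟨t', ht'⟩ := hj (j - m)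
      refine ⟨t - t', ?_⟩
      push_cast
      rw [← ht, ← ht']
      have e1 : β⁻¹ ^ m * β ^ j = β ^ (j - m) := by
        rw [zpow_sub₀ hβ0.ne', zpow_natCast, inv_pow]; field_simp
      have e2 : β ^ ((M : ℤ) + (m : ℤ) - j) = β ^ ((M : ℤ) - (j - m)) := by
        congr 1; ring
      have e3 : β⁻¹ ^ m * β ^ ((M : ℤ) + (m : ℤ) - j) = β ^ ((M : ℤ) - j) := by
        have : (M : ℤ) - j = ((M : ℤ) + (m : ℤ) - j) - m := by ring
        rw [this, zpow_sub₀ hβ0.ne' _ (m : ℤ), zpow_natCast, inv_pow]; field_simp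
      have e4 : ω⁻¹ ^ m * ω ^ j = ω ^ (j - m) := by
        rw [zpow_sub₀ hω0, zpow_natCast, inv_pow]; field_simp
      have e5 : w * (1 - ω⁻¹ ^ m) * ω ^ j = w * ω ^ j - w * ω ^ (j - m) := by
        rw [← e4]; ring
      rw [e5, Complex.sub_re]
      have e6 : s * (1 - β⁻¹ ^ m) * β ^ j = s * β ^ j - s * β ^ (j - m) := by
        rw [← e1]; ring
      have e7 : s * (1 - β⁻¹ ^ m) * β ^ ((M : ℤ) + (m : ℤ) - j) =
          s * β ^ ((M : ℤ) - (j - m)) - s * β ^ ((M : ℤ) - j) := by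
        rw [← e3]; rw [← e2]; ring
      rw [e6, e7]; ring

/-- lower bound for the cosines after one step -/
theorem Res.cos_step (h : Res β ω s M w) (hβ : 1 < β) (hω : ‖ω‖ = 1) {e : ℕ} (κ : ℝ)
    (hκ : ∀ j : ℤ, κ ≤ |Real.cos (Real.pi * (s * β ^ j))|) (he : M ≤ e) (j : ℤ) :
    κ - Real.pi * (β⁻¹ ^ (e - M) + 2 * ‖w * (1 - ω⁻¹ ^ (2 * e))‖) ≤
      |Real.cos (Real.pi * (s * (1 - β⁻¹ ^ (2 * e)) * β ^ j))| := by
  have hβ0 : 0 < β := by linarith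
  have hω0 : ω ≠ 0 := by
    intro h0; rw [h0, norm_zero] at hω; exact zero_ne_one hω
  have e1 : β⁻¹ ^ (2 * e) * β ^ j = β ^ (j - (2 * e : ℕ)) := by
    rw [zpow_sub₀ hβ0.ne', zpow_natCast, inv_pow]; field_simp
  have e2 : s * (1 - β⁻¹ ^ (2 * e)) * β ^ j = s * β ^ j - s * β ^ (j - (2 * e : ℕ)) := by
    rw [← e1]; ring
  have hpi := Real.pi_pos
  rcases le_or_gt j e with hj | hj
  · have h1 := abs_cos_ge (x := s * (1 - β⁻¹ ^ (2 * e)) * β ^ j) (y := s * β ^ j)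
    have h2 : |s * (1 - β⁻¹ ^ (2 * e)) * β ^ j - s * β ^ j| ≤ β⁻¹ ^ (e - M) := by
      rw [e2]
      have h3 : s * β ^ j - s * β ^ (j - (2 * e : ℕ)) - s * β ^ j = - (s * β ^ (j - (2 * e : ℕ))) := by
        ring
      rw [h3, abs_neg, abs_of_pos (mul_pos h.pos (zpow_pos hβ0 _))]
      have h4 : β ^ (j - (2 * e : ℕ)) ≤ β ^ (-(e - M : ℕ) : ℤ) := by
        refine zpow_le_zpow_right₀ hβ.le ?_
        omega
      have h5 : β ^ (-(e - M : ℕ) : ℤ) = β⁻¹ ^ (e - M) := by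
        rw [zpow_neg, zpow_natCast, inv_pow]
      have h6 : 0 < β ^ (j - (2 * e : ℕ)) := zpow_pos hβ0 _
      rw [← h5]
      nlinarith [h.le1]
    have h7 : 0 ≤ ‖w * (1 - ω⁻¹ ^ (2 * e))‖ := norm_nonneg _
    have h8 := hκ j
    have h9 : Real.pi * |s * (1 - β⁻¹ ^ (2 * e)) * β ^ j - s * β ^ j| ≤
        Real.pi * (β⁻¹ ^ (e - M) + 2 * ‖w * (1 - ω⁻¹ ^ (2 * e))‖) :=
      mul_le_mul_of_nonneg_left (by linarith) hpi.le
    linarith
  · obtain ⟨ρ, hρ, hint⟩ := h.int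
    obtain ⟨t, ht⟩ := hint j
    obtain ⟨t', ht'⟩ := hint (j - (2 * e : ℕ))
    set i : ℤ := j - (2 * e : ℕ) with hi
    -- s' β^j = (t - t') - Y
    set Y : ℝ := ρ * (s * β ^ ((M : ℤ) - j)) + 2 * (w * ω ^ j).re
      - (ρ * (s * β ^ ((M : ℤ) - i)) + 2 * (w * ω ^ i).re) with hY
    have h1 : s * (1 - β⁻¹ ^ (2 * e)) * β ^ j = ((t - t' : ℤ) : ℝ) - Y := by
      rw [e2, hY]; push_cast; rw [← ht, ← ht']; ring
    rw [abs_cos_sub_int _ h1]
    have h2 := abs_cos_ge (x := Y) (y := - (ρ * (s * β ^ ((M : ℤ) - i))))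
    have h3 : |Real.cos (Real.pi * (-(ρ * (s * β ^ ((M : ℤ) - i)))))| =
        |Real.cos (Real.pi * (s * β ^ ((M : ℤ) - i)))| := by
      rcases hρ with h | h
      · rw [h, one_mul, mul_neg, Real.cos_neg]
      · rw [h]; congr 2; ring
    rw [h3] at h2
    have h4 := hκ ((M : ℤ) - i)
    have h5 : |Y - -(ρ * (s * β ^ ((M : ℤ) - i)))| ≤ β⁻¹ ^ (e - M) + 2 * ‖w * (1 - ω⁻¹ ^ (2 * e))‖ := by
      have h6 : Y - -(ρ * (s * β ^ ((M : ℤ) - i))) =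
          ρ * (s * β ^ ((M : ℤ) - j)) + 2 * ((w * (1 - ω⁻¹ ^ (2 * e))) * ω ^ j).re := by
        have e4 : ω⁻¹ ^ (2 * e) * ω ^ j = ω ^ i := by
          rw [hi, zpow_sub₀ hω0, zpow_natCast, inv_pow]; field_simp
        have e5 : w * (1 - ω⁻¹ ^ (2 * e)) * ω ^ j = w * ω ^ j - w * ω ^ i := by
          rw [← e4]; ring
        rw [e5, Complex.sub_re, hY]; ring
      rw [h6]
      refine (abs_add_le _ _).trans (add_le_add ?_ ?_)
      · have h2 : |ρ| = 1 := by rcases hρ with h | h <;> simp [h]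
        rw [abs_mul, h2, one_mul, abs_of_pos (mul_pos h.pos (zpow_pos hβ0 _))]
        have h7 : β ^ ((M : ℤ) - j) ≤ β ^ (-(e - M : ℕ) : ℤ) := by
          refine zpow_le_zpow_right₀ hβ.le ?_
          omega
        have h8 : β ^ (-(e - M : ℕ) : ℤ) = β⁻¹ ^ (e - M) := by
          rw [zpow_neg, zpow_natCast, inv_pow]
        have h9 : 0 < β ^ ((M : ℤ) - j) := zpow_pos hβ0 _
        rw [← h8]
        nlinarith [h.le1]
      · rw [abs_mul, abs_of_pos (by norm_num : (0:ℝ) < 2)]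
        linarith [abs_re_mul_zpow_le hω (w * (1 - ω⁻¹ ^ (2 * e))) j]
    have h9 := mul_le_mul_of_nonneg_left h5 hpi.le
    linarith

end Crest.Agent.H24.Salem
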