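import Crest.Agent.H24.Salem.Omega

/-!
Row 104 (S0137), part 5: one bootstrap step.
-/

set_option autoImplicit false
open Filter Topology

namespace Crest.Agent.H24.Salem

/-- the resonant frequency `π s β^N` -/
noncomputable def fr (β s : ℝ) (N : ℤ) : ℝ := Real.pi * (s * β ^ N)

theorem fr_mul {β s : ℝ} (hβ : 1 < β) (N : ℤ) (n : ℕ) : fr β s N * β⁻¹ ^ n = fr β s (N - n) := by
  rw [fr, fr, zpow_sub₀ (by linarith), zpow_natCast, inv_pow]; ring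

theorem fr_succ {β s : ℝ} (hβ : 1 < β) (N : ℤ) : fr β s (N + 1) = β * fr β s N := by
  rw [fr, fr, zpow_add₀ (by linarith), zpow_one]; ring

theorem tau_eq_fr (β s : ℝ) (j : ℤ) : tau β s j = |Real.tan (fr β s j)| := rfl

theorem fr_step {β s : ℝ} (hβ : 1 < β) (N : ℤ) (m : ℕ) :
    fr β s N - fr β s (N - m) = fr β (s * (1 - β⁻¹ ^ m)) N := by
  rw [fr, fr, fr, zpow_sub₀ (by linarith), zpow_natCast, inv_pow]; ring

variable {β : ℝ} {ω : ℂ} {Φ : ℝ → ℝ} {s : ℝ} {M : ℕ} {w : ℂ} {κ : ℝ}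

/-- lower bound after one step -/
theorem step_lower (hΦ : IsCosProd β Φ) (h : Res β ω s M w) (hβ : 1 < β) (hω : ‖ω‖ = 1)
    (hκ : 0 < κ) (hc : ∀ j : ℤ, κ ≤ |Real.cos (Real.pi * (s * β ^ j))|) (hw : ‖w‖ ≤ 1)
    (hwl : β⁻¹ ^ M ≤ ‖w‖) {e : ℕ} (he : 4 * M ≤ e) (hsm : 3 * (Real.pi / κ) ^ 2 * ‖w‖ ≤ 1 / 2)
    (N : ℕ) :
    |Φ (fr β s N)| * |Φ (fr β s ((N : ℤ) - (2 * e : ℕ)))| *
        Real.exp (-(2 * (C2 β κ * (‖w‖ + ‖w‖ * M + ‖w‖ ^ 2 * N)))) ≤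
      |Φ (fr β (s * (1 - β⁻¹ ^ (2 * e))) N)| := by
  rw [← fr_step hβ]
  have hne : ∀ j : ℤ, Real.cos (fr β s j) ≠ 0 := by
    intro j h0
    have := hc j
    rw [fr] at h0
    rw [h0, abs_zero] at this
    linarith
  have hu : ∀ n : ℕ, |Real.tan (fr β s N * β⁻¹ ^ n) *
      Real.tan (fr β s ((N : ℤ) - (2 * e : ℕ)) * β⁻¹ ^ n)| =
      tau β s ((N : ℤ) - n) * tau β s ((N : ℤ) - n - (2 * e : ℕ)) := by
    intro n
    rw [fr_mul hβ, fr_mul hβ, abs_mul, tau_eq_fr, tau_eq_fr]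
    congr 4
    ring
  refine hΦ.sub_lower _ _ _ (fun n => ?_) (fun n => ?_) (fun n => ?_) (fun K => ?_)
  · rw [fr_mul hβ]; exact hne _
  · rw [fr_mul hβ]; exact hne _
  · rw [hu]
    exact (u_small h hβ hω hκ hc hwl he _).trans hsm
  · rw [Finset.sum_congr rfl fun n _ => hu n]
    exact sum_u h hβ hω hκ hc hw hwl he N K

/-- closeness of correlations -/
theorem corr_close (hΦ : IsCosProd β Φ) (h : Res β ω s M w) (hβ : 1 < β) (hω : ‖ω‖ = 1)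
    (hκ : 0 < κ) (hc : ∀ j : ℤ, κ ≤ |Real.cos (Real.pi * (s * β ^ j))|) (hw : ‖w‖ ≤ 1)
    (hwl : β⁻¹ ^ M ≤ ‖w‖) {e : ℕ} (he : 4 * M ≤ e) (N : ℕ) :
    |Φ (fr β s N - fr β s ((N : ℤ) - (2 * e : ℕ))) -
        Φ (fr β s N) * Φ (fr β s ((N : ℤ) - (2 * e : ℕ)))| ≤
      |Φ (fr β s N)| * |Φ (fr β s ((N : ℤ) - (2 * e : ℕ)))| *
        (Real.exp (C2 β κ * (‖w‖ + ‖w‖ * M + ‖w‖ ^ 2 * N)) - 1) := by
  have hne : ∀ j : ℤ, Real.cos (fr β s j) ≠ 0 := by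
    intro j h0
    have := hc j
    rw [fr] at h0
    rw [h0, abs_zero] at this
    linarith
  have hu : ∀ n : ℕ, |Real.tan (fr β s N * β⁻¹ ^ n) *
      Real.tan (fr β s ((N : ℤ) - (2 * e : ℕ)) * β⁻¹ ^ n)| =
      tau β s ((N : ℤ) - n) * tau β s ((N : ℤ) - n - (2 * e : ℕ)) := by
    intro n
    rw [fr_mul hβ, fr_mul hβ, abs_mul, tau_eq_fr, tau_eq_fr]
    congr 4
    ring
  refine hΦ.sub_close _ _ _ (fun n => ?_) (fun n => ?_) (fun K => ?_)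
  · rw [fr_mul hβ]; exact hne _
  · rw [fr_mul hβ]; exact hne _
  · rw [Finset.sum_congr rfl fun n _ => hu n]
    exact sum_u h hβ hω hκ hc hw hwl he N K

theorem abs_Phi_anti (hΦ : IsCosProd β Φ) (hβ : 1 < β) (s : ℝ) (N l : ℕ) :
    |Φ (fr β s ((N + l : ℕ) : ℤ))| ≤ |Φ (fr β s N)| := by
  induction l with
  | zero => simp
  | succ l ih =>
    have h1 : (((N + (l + 1) : ℕ)) : ℤ) = ((N + l : ℕ) : ℤ) + 1 := by push_cast; ring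
    rw [h1, fr_succ hβ, hΦ.mul (by linarith), abs_mul]
    exact (mul_le_of_le_one_left (abs_nonneg _) (Real.abs_cos_le_one _)).trans ih

theorem abs_cos_ge_exp {x : ℝ} (hx : Real.cos x ≠ 0) :
    Real.exp (-(Real.tan x ^ 2 / 2)) ≤ |Real.cos x| := by
  have h1 : 1 + Real.tan x ^ 2 ≤ Real.exp (Real.tan x ^ 2) := by
    linarith [Real.add_one_le_exp (Real.tan x ^ 2)]
  have h2 : (1 + Real.tan x ^ 2)⁻¹ = Real.cos x ^ 2 := Real.inv_one_add_tan_sq hx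
  have h3 : (Real.exp (-(Real.tan x ^ 2 / 2))) ^ 2 ≤ |Real.cos x| ^ 2 := by
    rw [sq_abs, ← h2, ← Real.exp_nat_mul]
    have h4 : ((2 : ℕ) : ℝ) * (-(Real.tan x ^ 2 / 2)) = -(Real.tan x ^ 2) := by push_cast; ring
    rw [h4, Real.exp_neg]
    exact inv_anti₀ (by positivity) h1
  exact abs_le_of_sq_le_sq' h3 (abs_nonneg _) |>.2

theorem tail_lower (hΦ : IsCosProd β Φ) (h : Res β ω s M w) (hβ : 1 < β) (hω : ‖ω‖ = 1)
    (hκ : 0 < κ) (hc : ∀ j : ℤ, κ ≤ |Real.cos (Real.pi * (s * β ^ j))|) (l : ℕ) :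
    |Φ (fr β s M)| * Real.exp (-((Real.pi / κ) ^ 2 *
        (∑ i ∈ Finset.range l, β⁻¹ ^ i + 4 * ‖w‖ ^ 2 * l))) ≤ |Φ (fr β s ((M + l : ℕ) : ℤ))| := by
  have hA : 0 < Real.pi / κ := div_pos Real.pi_pos hκ
  induction l with
  | zero => simp
  | succ l ih =>
    have h1 : (((M + (l + 1) : ℕ)) : ℤ) = ((M + l : ℕ) : ℤ) + 1 := by push_cast; ring
    rw [h1, fr_succ hβ, hΦ.mul (by linarith), abs_mul, ← fr_succ hβ]
    set j : ℤ := ((M + l : ℕ) : ℤ) + 1 with hj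
    have hne : Real.cos (fr β s j) ≠ 0 := by
      intro h0
      have := hc j
      rw [fr] at h0
      rw [h0, abs_zero] at this
      linarith
    have h2 := abs_cos_ge_exp hne
    have h3 : Real.tan (fr β s j) ^ 2 / 2 ≤ (Real.pi / κ) ^ 2 * (β⁻¹ ^ l + 4 * ‖w‖ ^ 2) := by
      have h4 := tau_le_w h hβ hω hκ hc j
      have h5 : β ^ ((M : ℤ) - j) = β⁻¹ ^ (l + 1) := by
        have : (M : ℤ) - j = -((l + 1 : ℕ) : ℤ) := by rw [hj]; push_cast; ring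
        rw [this, zpow_neg, zpow_natCast, inv_pow]
      rw [h5] at h4
      have h6 : Real.tan (fr β s j) ^ 2 = tau β s j ^ 2 := by rw [tau_eq_fr, sq_abs]
      rw [h6]
      have h7 : tau β s j ^ 2 ≤ (Real.pi / κ * (β⁻¹ ^ (l + 1) + 2 * ‖w‖)) ^ 2 :=
        pow_le_pow_left₀ (tau_nonneg _ _ _) h4 2
      have hr1 : β⁻¹ ≤ 1 := (inv_lt_one_of_one_lt₀ hβ).le
      have hr0 : 0 ≤ β⁻¹ := by positivity
      have h8 : β⁻¹ ^ (l + 1) ≤ β⁻¹ ^ l := pow_le_pow_of_le_one hr0 hr1 (by omega)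
      have h9 : β⁻¹ ^ (l + 1) ≤ 1 := pow_le_one₀ hr0 hr1
      have h10 : 0 ≤ β⁻¹ ^ (l + 1) := by positivity
      have h11 : (β⁻¹ ^ (l + 1) + 2 * ‖w‖) ^ 2 ≤ 2 * (β⁻¹ ^ l + 4 * ‖w‖ ^ 2) := by
        nlinarith [sq_nonneg (β⁻¹ ^ (l + 1) - 2 * ‖w‖)]
      rw [mul_pow] at h7
      nlinarith [mul_le_mul_of_nonneg_left h11 (sq_nonneg (Real.pi / κ))]
    have h12 : Real.exp (-((Real.pi / κ) ^ 2 * (β⁻¹ ^ l + 4 * ‖w‖ ^ 2))) ≤ |Real.cos (fr β s j)| :=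
      le_trans (Real.exp_le_exp.2 (by linarith)) h2
    have h13 : Real.exp (-((Real.pi / κ) ^ 2 *
        (∑ i ∈ Finset.range (l + 1), β⁻¹ ^ i + 4 * ‖w‖ ^ 2 * ((l + 1 : ℕ) : ℝ)))) =
        Real.exp (-((Real.pi / κ) ^ 2 * (β⁻¹ ^ l + 4 * ‖w‖ ^ 2))) *
        Real.exp (-((Real.pi / κ) ^ 2 * (∑ i ∈ Finset.range l, β⁻¹ ^ i + 4 * ‖w‖ ^ 2 * l))) := by
      rw [← Real.exp_add, Finset.sum_range_succ]
      congr 1
      push_cast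
      ring
    rw [h13]
    calc |Φ (fr β s M)| * (Real.exp (-((Real.pi / κ) ^ 2 * (β⁻¹ ^ l + 4 * ‖w‖ ^ 2))) *
        Real.exp (-((Real.pi / κ) ^ 2 * (∑ i ∈ Finset.range l, β⁻¹ ^ i + 4 * ‖w‖ ^ 2 * l))))
        = Real.exp (-((Real.pi / κ) ^ 2 * (β⁻¹ ^ l + 4 * ‖w‖ ^ 2))) *
          (|Φ (fr β s M)| *
            Real.exp (-((Real.pi / κ) ^ 2 * (∑ i ∈ Finset.range l, β⁻¹ ^ i + 4 * ‖w‖ ^ 2 * l)))) := by
          ring
      _ ≤ |Real.cos (fr β s j)| * |Φ (fr β s ((M + l : ℕ) : ℤ))| :=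
          mul_le_mul h12 ih (by positivity) (abs_nonneg _)

/-- lower bound for all `N` from the lower bound at `N = M`. -/
theorem all_lower (hΦ : IsCosProd β Φ) (h : Res β ω s M w) (hβ : 1 < β) (hω : ‖ω‖ = 1)
    (hκ : 0 < κ) (hc : ∀ j : ℤ, κ ≤ |Real.cos (Real.pi * (s * β ^ j))|) (N : ℕ)
    (hN : (N : ℝ) * ‖w‖ ^ 2 ≤ 1) :
    |Φ (fr β s M)| * Real.exp (-((Real.pi / κ) ^ 2 * (Cb β + 4))) ≤ |Φ (fr β s N)| := by
  have hCb := one_le_Cb hβ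
  rcases le_or_gt N M with hNM | hNM
  · obtain ⟨l, rfl⟩ := Nat.exists_eq_add_of_le hNM
    have h1 := abs_Phi_anti hΦ hβ s N l
    have h2 : Real.exp (-((Real.pi / κ) ^ 2 * (Cb β + 4))) ≤ 1 := by
      rw [Real.exp_le_one_iff]
      have : 0 ≤ (Real.pi / κ) ^ 2 * (Cb β + 4) := by positivity
      linarith
    exact (mul_le_of_le_one_right (abs_nonneg _) h2).trans h1
  · obtain ⟨l, rfl⟩ := Nat.exists_eq_add_of_le hNM.le
    refine le_trans (mul_le_mul_of_nonneg_left (Real.exp_le_exp.2 ?_) (abs_nonneg _))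
      (tail_lower hΦ h hβ hω hκ hc l)
    have h2 := geom_le (r := β⁻¹) (by positivity) (inv_lt_one_of_one_lt₀ hβ) l
    have h4 : 1 / (1 - β⁻¹) = Cb β := rfl
    rw [h4] at h2
    have h5 : ‖w‖ ^ 2 * l ≤ 1 := by
      refine le_trans ?_ hN
      rw [mul_comm]
      refine mul_le_mul_of_nonneg_right ?_ (by positivity)
      push_cast
      linarith [Nat.cast_nonneg (α := ℝ) M]
    have h6 : ∑ i ∈ Finset.range l, β⁻¹ ^ i + 4 * ‖w‖ ^ 2 * l ≤ Cb β + 4 := by nlinarith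
    have := mul_le_mul_of_nonneg_left h6 (sq_nonneg (Real.pi / κ))
    linarith

/-- The state of the bootstrap. -/
structure State (β : ℝ) (ω : ℂ) (Φ : ℝ → ℝ) (κ : ℝ) (s : ℝ) (M : ℕ) (w : ℂ) (Q : ℕ) (H : ℝ) :
    Prop where
  res : Res β ω s M w
  cos : ∀ j : ℤ, κ + 10 * ‖w‖ ≤ |Real.cos (Real.pi * (s * β ^ j))|
  wlow : β⁻¹ ^ M ≤ ‖w‖
  slow : β⁻¹ ^ M ≤ s
  inv : ∀ m : ℕ, 1 ≤ m → m ≤ Q → ‖w‖ ≤ ‖1 - ω ^ m‖
  one_le : 1 ≤ M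
  MQ : M ≤ 3 * Q
  Qw : (Q : ℝ) * ‖w‖ ≤ 1
  low : ∀ N : ℕ, (N : ℝ) * ‖w‖ ^ 2 ≤ 1 → Real.exp (-H) ≤ |Φ (fr β s N)|

/-- additive constant of the bootstrap -/
noncomputable def c0 (β κ : ℝ) : ℝ := 10 * C2 β κ + (Real.pi / κ) ^ 2 * (Cb β + 4)

set_option maxHeartbeats 3200000 in
theorem State.next (hΦ : IsCosProd β Φ) (hβ : 1 < β) (hω : ‖ω‖ = 1)
    (hT : ∀ j : ℤ, ∃ t : ℤ, β ^ j + β ^ (-j) + 2 * (ω ^ j).re = t)
    (hne : ∀ m : ℕ, 1 ≤ m → ω ^ m ≠ 1) (hκ : 0 < κ) {Q : ℕ} {H : ℝ}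
    (h : State β ω Φ κ s M w Q H) (hsm : 3 * (Real.pi / κ) ^ 2 * ‖w‖ ≤ 1 / 2)
    (hw6 : ‖w‖ ≤ 1 / 10 ^ 6) :
    ∃ (s' : ℝ) (M' : ℕ) (w' : ℂ) (Q' : ℕ), State β ω Φ κ s' M' w' Q' (2 * H + c0 β κ) ∧
      ‖w'‖ ≤ 256 * Real.pi * ‖w‖ ^ 3 ∧ (Q' : ℝ) * ‖w'‖ ≤ 64 * Real.pi * ‖w‖ := by
  have hpi3 := Real.pi_gt_three
  have hpi4 := Real.pi_le_four
  have hβ0 : 0 < β := by linarith
  have hr0 : 0 < β⁻¹ := by positivity
  have hr1 : β⁻¹ ≤ 1 := (inv_lt_one_of_one_lt₀ hβ).le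
  have hA : 0 < Real.pi / κ := div_pos Real.pi_pos hκ
  have hw0 : 0 < ‖w‖ := lt_of_lt_of_le (by positivity) h.wlow
  set δ := ‖w‖ with hδ
  have hδ1 : δ ≤ 1 := by linarith
  -- Q'
  set Q' : ℕ := ⌊1 / (4 * δ ^ 2)⌋₊ with hQ'
  have hx0 : 0 < 1 / (4 * δ ^ 2) := by positivity
  have hQ'le : (Q' : ℝ) ≤ 1 / (4 * δ ^ 2) := Nat.floor_le hx0.le
  have hQ'gt : 1 / (4 * δ ^ 2) < (Q' : ℝ) + 1 := Nat.lt_floor_add_one _
  have hQ'δ : (Q' : ℝ) * δ ^ 2 ≤ 1 / 4 := by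
    have := mul_le_mul_of_nonneg_right hQ'le (by positivity : 0 ≤ δ ^ 2)
    have e : 1 / (4 * δ ^ 2) * δ ^ 2 = 1 / 4 := by field_simp
    rwa [e] at this
  have hM0 : (1 : ℝ) ≤ M := by exact_mod_cast h.one_le
  have hMQ' : (M : ℝ) ≤ 3 * Q := by exact_mod_cast h.MQ
  have hQpos : 1 ≤ Q := by have := h.MQ; have := h.one_le; omega
  have hQ1 : (1 : ℝ) ≤ Q := by exact_mod_cast hQpos
  have hQQ' : 35 * Q ≤ Q' := by
    have h1 : (35 * Q : ℝ) < (Q' : ℝ) + 1 := by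
      refine lt_of_le_of_lt ?_ hQ'gt
      rw [le_div_iff₀ (by positivity)]
      have := h.Qw
      nlinarith
    have h2 : 35 * Q < Q' + 1 := by exact_mod_cast h1
    omega
  have hQ'pos : 0 < Q' := by omega
  -- minimiser
  obtain ⟨m0, hm0mem, hm0min⟩ := Finset.exists_min_image (Finset.Icc 1 Q') (fun m => ‖1 - ω ^ m‖)
    ⟨1, Finset.mem_Icc.2 ⟨le_rfl, hQ'pos⟩⟩
  have hm01 : 1 ≤ m0 := (Finset.mem_Icc.1 hm0mem).1
  have hm0Q' : m0 ≤ Q' := (Finset.mem_Icc.1 hm0mem).2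
  obtain ⟨m1, hm11, hm1Q, hm1⟩ := dirichlet hω hQ'pos
  have hm0le : ‖1 - ω ^ m0‖ ≤ 2 * Real.pi / (Q' + 1) :=
    (hm0min m1 (Finset.mem_Icc.2 ⟨hm11, hm1Q⟩)).trans hm1
  have hm0le' : ‖1 - ω ^ m0‖ ≤ 8 * Real.pi * δ ^ 2 := by
    refine hm0le.trans ?_
    rw [div_le_iff₀ (by positivity)]
    have h1 : 1 < (4 * δ ^ 2) * ((Q' : ℝ) + 1) := by
      have := mul_lt_mul_of_pos_left hQ'gt (by positivity : 0 < 4 * δ ^ 2)
      have e : 4 * δ ^ 2 * (1 / (4 * δ ^ 2)) = 1 := by field_simp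
      rwa [e] at this
    nlinarith
  have hm0Q : Q < m0 := by
    by_contra hcon
    have h1 := h.inv m0 hm01 (by omega)
    have h2 : 8 * Real.pi * δ ^ 2 < δ := by nlinarith
    linarith
  -- multiplier
  set r : ℕ := 16 * Q / m0 + 1 with hr
  have hr16 : r ≤ 16 := by
    have : 16 * Q / m0 < 16 := by
      rw [Nat.div_lt_iff_lt_mul (by omega)]; omega
    omega
  set e : ℕ := r * m0 with he
  have he1 : 16 * Q ≤ e := by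
    have h1 : 16 * Q < m0 * (16 * Q / m0 + 1) := Nat.lt_mul_div_succ _ (by omega)
    have h2 : e = m0 * (16 * Q / m0 + 1) := by rw [he, hr]; exact Nat.mul_comm _ _
    omega
  have he2 : e ≤ 16 * Q + m0 := by
    have h1 : m0 * (16 * Q / m0) ≤ 16 * Q := Nat.mul_div_le _ _
    have h2 : e = m0 * (16 * Q / m0) + m0 := by rw [he, hr]; ring
    omega
  have heM : 4 * M ≤ e := by have := h.MQ; omega
  have he16 : 1 ≤ 2 * e := by omega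
  -- the new w
  have hom : ‖1 - ω⁻¹ ^ (2 * e)‖ ≤ 32 * ‖1 - ω ^ m0‖ := by
    rw [norm_one_sub_inv_pow hω, he, ← mul_assoc]
    refine (norm_one_sub_pow_mul hω m0 (2 * r)).trans ?_
    refine mul_le_mul_of_nonneg_right ?_ (norm_nonneg _)
    have : 2 * r ≤ 32 := by omega
    exact_mod_cast this
  have hw' : ‖w * (1 - ω⁻¹ ^ (2 * e))‖ = δ * ‖1 - ω⁻¹ ^ (2 * e)‖ := norm_mul _ _
  have hw'1 : ‖w * (1 - ω⁻¹ ^ (2 * e))‖ ≤ 256 * Real.pi * δ ^ 3 := by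
    rw [hw']
    have h1 : ‖1 - ω⁻¹ ^ (2 * e)‖ ≤ 256 * Real.pi * δ ^ 2 := by linarith
    calc δ * ‖1 - ω⁻¹ ^ (2 * e)‖ ≤ δ * (256 * Real.pi * δ ^ 2) := mul_le_mul_of_nonneg_left h1 hw0.le
      _ = 256 * Real.pi * δ ^ 3 := by ring
  have hw'2 : (Q' : ℝ) * ‖w * (1 - ω⁻¹ ^ (2 * e))‖ ≤ 64 * Real.pi * δ := by
    rw [hw']
    have h1 : (Q' : ℝ) * ‖1 - ω⁻¹ ^ (2 * e)‖ ≤ 64 * Real.pi := by
      have h2 : ‖1 - ω⁻¹ ^ (2 * e)‖ ≤ 64 * Real.pi / (Q' + 1) := by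
        refine hom.trans ?_
        have : 64 * Real.pi / ((Q' : ℝ) + 1) = 32 * (2 * Real.pi / (Q' + 1)) := by ring
        rw [this]; linarith
      have h3 : (Q' : ℝ) * (64 * Real.pi / (Q' + 1)) ≤ 64 * Real.pi := by
        rw [mul_div_assoc', div_le_iff₀ (by positivity)]
        nlinarith
      exact (mul_le_mul_of_nonneg_left h2 (by positivity)).trans h3
    calc (Q' : ℝ) * (δ * ‖1 - ω⁻¹ ^ (2 * e)‖) = ((Q' : ℝ) * ‖1 - ω⁻¹ ^ (2 * e)‖) * δ := by ring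
      _ ≤ 64 * Real.pi * δ := mul_le_mul_of_nonneg_right h1 hw0.le
  have hw'10 : ‖w * (1 - ω⁻¹ ^ (2 * e))‖ ≤ δ / 100 := by
    refine hw'1.trans ?_
    have h1 : δ ^ 2 ≤ 1 / 10 ^ 12 := by
      calc δ ^ 2 ≤ (1 / 10 ^ 6) ^ 2 := pow_le_pow_left₀ hw0.le hw6 2
        _ = 1 / 10 ^ 12 := by norm_num
    have h2 : 256 * Real.pi * δ ^ 2 ≤ 256 * 4 * (1 / 10 ^ 12) :=
      mul_le_mul (by linarith) h1 (by positivity) (by norm_num)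
    calc 256 * Real.pi * δ ^ 3 = (256 * Real.pi * δ ^ 2) * δ := by ring
      _ ≤ (1 / 100) * δ := mul_le_mul_of_nonneg_right (h2.trans (by norm_num)) hw0.le
      _ = δ / 100 := by ring
  have hβM : β⁻¹ ^ M ≤ 1 / 10 ^ 6 := h.wlow.trans hw6
  have hβ2e : β⁻¹ ^ (2 * e) ≤ 1 / 2 := by
    have : β⁻¹ ^ (2 * e) ≤ β⁻¹ ^ M := pow_le_pow_of_le_one hr0.le hr1 (by omega)
    linarith
  have h2β : 2 ≤ β ^ (2 * e) := by
    rw [inv_pow] at hβ2e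
    have h1 : 0 < β ^ (2 * e) := by positivity
    have h2 := inv_anti₀ (by positivity) hβ2e
    rwa [inv_inv, one_div, inv_inv] at h2
  -- new residue
  have hres' := h.res.step hβ hω he16
  have hcos' : ∀ j : ℤ, κ + 10 * ‖w * (1 - ω⁻¹ ^ (2 * e))‖ ≤
      |Real.cos (Real.pi * (s * (1 - β⁻¹ ^ (2 * e)) * β ^ j))| := by
    intro j
    refine le_trans ?_ (h.res.cos_step hβ hω (κ + 10 * δ) h.cos (by omega : M ≤ e) j)
    have h1 : β⁻¹ ^ (e - M) ≤ δ ^ 2 := by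
      have h2 : β⁻¹ ^ (e - M) ≤ β⁻¹ ^ (M * 2) := pow_le_pow_of_le_one hr0.le hr1 (by omega)
      rw [pow_mul] at h2
      exact h2.trans (pow_le_pow_left₀ (by positivity) h.wlow 2)
    have h3 : δ ^ 2 ≤ δ / 10 ^ 6 := by nlinarith
    nlinarith
  have hM'low : β⁻¹ ^ (M + 2 * e) ≤ ‖w * (1 - ω⁻¹ ^ (2 * e))‖ := by
    rw [hw', pow_add, norm_one_sub_inv_pow hω]
    refine mul_le_mul h.wlow ?_ (by positivity) hw0.le
    exact norm_one_sub_ge hβ hω hT (hne _ he16) h2β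
  have hs'low : β⁻¹ ^ (M + 2 * e) ≤ s * (1 - β⁻¹ ^ (2 * e)) := by
    rw [pow_add]
    refine mul_le_mul h.slow ?_ (by positivity) h.res.pos.le
    linarith
  have hM'3 : M + 2 * e ≤ 3 * Q' := by have := h.MQ; omega
  have hM'δ : ((M + 2 * e : ℕ) : ℝ) * δ ^ 2 ≤ 1 := by
    have h1 : ((M + 2 * e : ℕ) : ℝ) ≤ 3 * Q' := by exact_mod_cast hM'3
    nlinarith [mul_le_mul_of_nonneg_right h1 (by positivity : 0 ≤ δ ^ 2)]
  have hMδ : (M : ℝ) * δ ≤ 3 := by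
    have := h.Qw
    nlinarith [mul_le_mul_of_nonneg_right hMQ' hw0.le]
  have hcκ : ∀ j : ℤ, κ ≤ |Real.cos (Real.pi * (s * β ^ j))| := fun j => by
    have := h.cos j
    linarith
  have hcκ' : ∀ j : ℤ, κ ≤ |Real.cos (Real.pi * (s * (1 - β⁻¹ ^ (2 * e)) * β ^ j))| := fun j => by
    have := hcos' j
    have h0 : 0 ≤ ‖w * (1 - ω⁻¹ ^ (2 * e))‖ := norm_nonneg _
    linarith
  refine ⟨s * (1 - β⁻¹ ^ (2 * e)), M + 2 * e, w * (1 - ω⁻¹ ^ (2 * e)), Q', ⟨hres', hcos', hM'low,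
    hs'low, ?_, by omega, hM'3, ?_, ?_⟩, hw'1, hw'2⟩
  · -- inv
    intro m hm1 hmQ
    refine le_trans ?_ (hm0min m (Finset.mem_Icc.2 ⟨hm1, hmQ⟩))
    rw [hw']
    have h0 : 0 ≤ ‖1 - ω ^ m0‖ := norm_nonneg _
    calc δ * ‖1 - ω⁻¹ ^ (2 * e)‖ ≤ δ * (32 * ‖1 - ω ^ m0‖) := mul_le_mul_of_nonneg_left hom hw0.le
      _ ≤ 1 * ‖1 - ω ^ m0‖ := by
        rw [← mul_assoc]
        exact mul_le_mul_of_nonneg_right (by linarith) h0
      _ = ‖1 - ω ^ m0‖ := one_mul _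
  · refine hw'2.trans ?_
    nlinarith
  · -- low
    intro N hN
    refine le_trans ?_ (all_lower hΦ hres' hβ hω hκ hcκ' N hN)
    have h1 := step_lower hΦ h.res hβ hω hκ hcκ hδ1 h.wlow heM hsm (M + 2 * e)
    have h2 : ((M + 2 * e : ℕ) : ℤ) - (2 * e : ℕ) = M := by push_cast; ring
    rw [h2] at h1
    have h3 := h.low (M + 2 * e) hM'δ
    have h4 : Real.exp (-H) ≤ |Φ (fr β s M)| := by
      have := abs_Phi_anti hΦ hβ s M (2 * e)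
      exact h3.trans this
    have hC2 : 0 ≤ C2 β κ := by
      rw [C2]; have := one_le_Cb hβ; positivity
    have h5 : C2 β κ * (δ + δ * M + δ ^ 2 * (M + 2 * e : ℕ)) ≤ 5 * C2 β κ := by
      have : δ + δ * M + δ ^ 2 * (M + 2 * e : ℕ) ≤ 5 := by nlinarith
      nlinarith
    have h6 : Real.exp (-H) * Real.exp (-H) * Real.exp (-(10 * C2 β κ)) ≤
        |Φ (fr β (s * (1 - β⁻¹ ^ (2 * e))) ((M + 2 * e : ℕ) : ℤ))| := by
      refine le_trans ?_ h1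
      refine mul_le_mul (mul_le_mul h3 h4 (Real.exp_pos _).le (abs_nonneg _)) ?_
        (Real.exp_pos _).le (by positivity)
      exact Real.exp_le_exp.2 (by linarith)
    have h7 : Real.exp (-(2 * H + c0 β κ)) = Real.exp (-H) * Real.exp (-H) *
        Real.exp (-(10 * C2 β κ)) * Real.exp (-((Real.pi / κ) ^ 2 * (Cb β + 4))) := by
      rw [← Real.exp_add, ← Real.exp_add, ← Real.exp_add, c0]
      congr 1; ring
    rw [h7]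
    exact mul_le_mul_of_nonneg_right h6 (Real.exp_pos _).le

end Crest.Agent.H24.Salem
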