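import Crest.Agent.H24.Salem.Res

/-!
Row 104 (S0137), part 3: sums of tangents.
-/

set_option autoImplicit false
open Filter Topology

namespace Crest.Agent.H24.Salem

/-- `|tan (π s β^j)|` -/
noncomputable def tau (β s : ℝ) (j : ℤ) : ℝ := |Real.tan (Real.pi * (s * β ^ j))|

theorem tau_nonneg (β s : ℝ) (j : ℤ) : 0 ≤ tau β s j := abs_nonneg _

theorem tau_eq (β s : ℝ) (j : ℤ) :
    tau β s j = |Real.sin (Real.pi * (s * β ^ j))| / |Real.cos (Real.pi * (s * β ^ j))| := by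
  rw [tau, Real.tan_eq_sin_div_cos, abs_div]

theorem tau_le_of {β s κ B : ℝ} {j : ℤ} (hκ : 0 < κ) (hB : 0 ≤ B)
    (hc : κ ≤ |Real.cos (Real.pi * (s * β ^ j))|)
    (hs : |Real.sin (Real.pi * (s * β ^ j))| ≤ Real.pi * B) : tau β s j ≤ Real.pi / κ * B := by
  rw [tau_eq]
  have hpi := Real.pi_pos
  calc |Real.sin (Real.pi * (s * β ^ j))| / |Real.cos (Real.pi * (s * β ^ j))|
      ≤ (Real.pi * B) / κ := div_le_div₀ (by positivity) hs hκ hc
    _ = Real.pi / κ * B := by ring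

theorem sum_shift (f : ℤ → ℝ) (hf : ∀ j, 0 ≤ f j) (B0 : ℝ)
    (h0 : ∀ K : ℕ, ∑ n ∈ Finset.range K, f (-(n : ℤ)) ≤ B0) (g : ℕ → ℝ)
    (hg : ∀ i : ℕ, f ((i : ℤ) + 1) ≤ g i) (N : ℕ) :
    ∀ K : ℕ, ∑ n ∈ Finset.range K, f ((N : ℤ) - n) ≤ B0 + ∑ i ∈ Finset.range N, g i := by
  have hB0 : 0 ≤ B0 := by simpa using h0 0
  have hg0 : ∀ i, 0 ≤ g i := fun i => (hf _).trans (hg i)
  induction N with
  | zero => intro K; simpa using h0 K
  | succ N ih =>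
    intro K
    cases K with
    | zero =>
      simp only [Finset.range_zero, Finset.sum_empty]
      have : 0 ≤ ∑ i ∈ Finset.range (N + 1), g i := Finset.sum_nonneg fun i _ => hg0 i
      linarith
    | succ K =>
      rw [Finset.sum_range_succ']
      have h1 : ∑ k ∈ Finset.range K, f (((N + 1 : ℕ) : ℤ) - ((k + 1 : ℕ) : ℤ)) =
          ∑ k ∈ Finset.range K, f ((N : ℤ) - k) := by
        refine Finset.sum_congr rfl fun k _ => ?_
        have : ((N + 1 : ℕ) : ℤ) - ((k + 1 : ℕ) : ℤ) = (N : ℤ) - k := by push_cast; ring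
        rw [this]
      rw [h1, Finset.sum_range_succ]
      have h2 := ih K
      have h3 := hg N
      have h4 : ((N + 1 : ℕ) : ℤ) - ((0 : ℕ) : ℤ) = (N : ℤ) + 1 := by push_cast; ring
      rw [h4]
      linarith

theorem geom_le {r : ℝ} (h0 : 0 ≤ r) (h1 : r < 1) (K : ℕ) :
    ∑ n ∈ Finset.range K, r ^ n ≤ 1 / (1 - r) := by
  have h2 := (summable_geometric_of_lt_one h0 h1).sum_le_tsum (Finset.range K)
    (fun i _ => pow_nonneg h0 i)
  rw [tsum_geometric_of_lt_one h0 h1] at h2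
  simpa [one_div] using h2

theorem sum_trunc_le {r : ℝ} (h0 : 0 ≤ r) (h1 : r < 1) (M N : ℕ) :
    ∑ i ∈ Finset.range N, r ^ (i + 1 - M) ≤ M + 1 / (1 - r) := by
  have h2 : ∑ i ∈ Finset.range N, r ^ (i + 1 - M) ≤ ∑ i ∈ Finset.range (M + N), r ^ (i + 1 - M) :=
    Finset.sum_le_sum_of_subset_of_nonneg (Finset.range_mono (by omega))
      (fun i _ _ => pow_nonneg h0 _)
  rw [Finset.sum_range_add] at h2
  have h3 : ∑ x ∈ Finset.range M, r ^ (x + 1 - M) = M := by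
    rw [Finset.sum_congr rfl (g := fun _ => (1 : ℝ))]
    · simp
    · intro x hx
      have : x + 1 - M = 0 := by have := Finset.mem_range.1 hx; omega
      rw [this, pow_zero]
  have h4 : ∑ x ∈ Finset.range N, r ^ (M + x + 1 - M) ≤ 1 / (1 - r) := by
    refine le_trans (Finset.sum_le_sum fun x _ => ?_) (geom_le h0 h1 N)
    have : M + x + 1 - M = x + 1 := by omega
    rw [this, pow_succ]
    exact mul_le_of_le_one_right (pow_nonneg h0 _) h1.le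
  linarith

/-- the constant `C_β = 1/(1-β⁻¹)` -/
noncomputable def Cb (β : ℝ) : ℝ := 1 / (1 - β⁻¹)

theorem one_le_Cb {β : ℝ} (hβ : 1 < β) : 1 ≤ Cb β := by
  have h1 : β⁻¹ < 1 := inv_lt_one_of_one_lt₀ hβ
  have h2 : 0 < β⁻¹ := by positivity
  rw [Cb, le_div_iff₀ (by linarith)]
  linarith

variable {β : ℝ} {ω : ℂ} {s : ℝ} {M : ℕ} {w : ℂ} {κ : ℝ}

theorem tau_le_A (_h : Res β ω s M w) (hκ : 0 < κ)
    (hc : ∀ j : ℤ, κ ≤ |Real.cos (Real.pi * (s * β ^ j))|) (j : ℤ) : tau β s j ≤ Real.pi / κ := by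
  have h1 : |Real.sin (Real.pi * (s * β ^ j))| ≤ Real.pi * 1 := by
    have := Real.abs_sin_le_one (Real.pi * (s * β ^ j))
    linarith [Real.pi_gt_three]
  simpa using tau_le_of hκ zero_le_one (hc j) h1

theorem tau_le_pow (h : Res β ω s M w) (hβ : 1 < β) (hκ : 0 < κ)
    (hc : ∀ j : ℤ, κ ≤ |Real.cos (Real.pi * (s * β ^ j))|) (j : ℤ) :
    tau β s j ≤ Real.pi / κ * β ^ j :=
  tau_le_of hκ (zpow_pos (by linarith) _).le (hc j) (h.sin_le' hβ j)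

theorem tau_le_w (h : Res β ω s M w) (hβ : 1 < β) (hω : ‖ω‖ = 1) (hκ : 0 < κ)
    (hc : ∀ j : ℤ, κ ≤ |Real.cos (Real.pi * (s * β ^ j))|) (j : ℤ) :
    tau β s j ≤ Real.pi / κ * (β ^ ((M : ℤ) - j) + 2 * ‖w‖) :=
  tau_le_of hκ (by have := zpow_pos (show 0 < β by linarith) ((M : ℤ) - j); positivity)
    (hc j) (h.sin_le hβ hω j)

theorem tau_le_trunc (h : Res β ω s M w) (hβ : 1 < β) (hω : ‖ω‖ = 1) (hκ : 0 < κ)
    (hc : ∀ j : ℤ, κ ≤ |Real.cos (Real.pi * (s * β ^ j))|) (i : ℕ) :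
    tau β s ((i : ℤ) + 1) ≤ Real.pi / κ * (β⁻¹ ^ (i + 1 - M) + 2 * ‖w‖) := by
  have hA : 0 < Real.pi / κ := div_pos Real.pi_pos hκ
  rcases le_or_gt (i + 1) M with hi | hi
  · have h1 : i + 1 - M = 0 := by omega
    rw [h1, pow_zero]
    refine (tau_le_A h hκ hc _).trans ?_
    have : 0 ≤ ‖w‖ := norm_nonneg _
    nlinarith
  · refine (tau_le_w h hβ hω hκ hc _).trans (le_of_eq ?_)
    have h2 : β ^ ((M : ℤ) - ((i : ℤ) + 1)) = β⁻¹ ^ (i + 1 - M) := by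
      have : (M : ℤ) - ((i : ℤ) + 1) = -((i + 1 - M : ℕ) : ℤ) := by omega
      rw [this, zpow_neg, zpow_natCast, inv_pow]
    rw [h2]

theorem sum_tau_neg (h : Res β ω s M w) (hβ : 1 < β) (hκ : 0 < κ)
    (hc : ∀ j : ℤ, κ ≤ |Real.cos (Real.pi * (s * β ^ j))|) (N : ℤ) (hN : N ≤ 0) (K : ℕ) :
    ∑ n ∈ Finset.range K, tau β s (N - n) ≤ Real.pi / κ * Cb β := by
  have hβ0 : 0 < β := by linarith
  have hA : 0 < Real.pi / κ := div_pos Real.pi_pos hκ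
  have h1 : ∑ n ∈ Finset.range K, tau β s (N - n) ≤ ∑ n ∈ Finset.range K, Real.pi / κ * β⁻¹ ^ n := by
    refine Finset.sum_le_sum fun n _ => (tau_le_pow h hβ hκ hc _).trans ?_
    refine mul_le_mul_of_nonneg_left ?_ hA.le
    calc β ^ (N - n) ≤ β ^ (-(n : ℤ)) := zpow_le_zpow_right₀ hβ.le (by omega)
      _ = β⁻¹ ^ n := by rw [zpow_neg, zpow_natCast, inv_pow]
  rw [← Finset.mul_sum] at h1
  exact h1.trans (mul_le_mul_of_nonneg_left
    (geom_le (by positivity) (inv_lt_one_of_one_lt₀ hβ) K) hA.le)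

theorem sum_tau (h : Res β ω s M w) (hβ : 1 < β) (hω : ‖ω‖ = 1) (hκ : 0 < κ)
    (hc : ∀ j : ℤ, κ ≤ |Real.cos (Real.pi * (s * β ^ j))|) (N : ℕ) (K : ℕ) :
    ∑ n ∈ Finset.range K, tau β s ((N : ℤ) - n) ≤
      Real.pi / κ * (2 * Cb β + M + 2 * ‖w‖ * N) := by
  have hβ0 : 0 < β := by linarith
  have hA : 0 < Real.pi / κ := div_pos Real.pi_pos hκ
  have h0 : ∀ K : ℕ, ∑ n ∈ Finset.range K, tau β s (-(n : ℤ)) ≤ Real.pi / κ * Cb β := by
    intro K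
    simpa using sum_tau_neg h hβ hκ hc 0 le_rfl K
  have h1 := sum_shift (tau β s) (tau_nonneg β s) _ h0
    (fun i => Real.pi / κ * (β⁻¹ ^ (i + 1 - M) + 2 * ‖w‖)) (tau_le_trunc h hβ hω hκ hc) N K
  refine h1.trans ?_
  rw [← Finset.mul_sum, ← mul_add]
  refine mul_le_mul_of_nonneg_left ?_ hA.le
  rw [Finset.sum_add_distrib]
  have h2 := sum_trunc_le (r := β⁻¹) (by positivity) (inv_lt_one_of_one_lt₀ hβ) M N
  have h3 : ∑ _i ∈ Finset.range N, 2 * ‖w‖ = 2 * ‖w‖ * N := by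
    rw [Finset.sum_const, Finset.card_range, nsmul_eq_mul]; ring
  rw [h3]
  have h4 : 1 / (1 - β⁻¹) = Cb β := rfl
  rw [h4] at h2
  linarith

/-- the main error constant -/
noncomputable def C2 (β κ : ℝ) : ℝ := 7 * Cb β * (Real.pi / κ) ^ 2

theorem sum_u (h : Res β ω s M w) (hβ : 1 < β) (hω : ‖ω‖ = 1) (hκ : 0 < κ)
    (hc : ∀ j : ℤ, κ ≤ |Real.cos (Real.pi * (s * β ^ j))|) (hw : ‖w‖ ≤ 1)
    (hwl : β⁻¹ ^ M ≤ ‖w‖) {e : ℕ} (he : 4 * M ≤ e) (N K : ℕ) :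
    ∑ n ∈ Finset.range K, tau β s ((N : ℤ) - n) * tau β s ((N : ℤ) - n - (2 * e : ℕ)) ≤
      C2 β κ * (‖w‖ + ‖w‖ * M + ‖w‖ ^ 2 * N) := by
  have hβ0 : 0 < β := by linarith
  have hA : 0 < Real.pi / κ := div_pos Real.pi_pos hκ
  have hCb := one_le_Cb hβ
  have hr0 : 0 ≤ β⁻¹ := by positivity
  have hr1 : β⁻¹ ≤ 1 := (inv_lt_one_of_one_lt₀ hβ).le
  have hw0 : 0 ≤ ‖w‖ := norm_nonneg _
  set δ := ‖w‖ with hδ
  -- small powers
  have hp4 : β⁻¹ ^ (4 * M) ≤ δ ^ 4 := by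
    rw [mul_comm, pow_mul]; exact pow_le_pow_left₀ (by positivity) hwl 4
  have hp3 : β⁻¹ ^ (3 * M) ≤ δ ^ 3 := by
    rw [mul_comm, pow_mul]; exact pow_le_pow_left₀ (by positivity) hwl 3
  have hpe : β⁻¹ ^ e ≤ δ ^ 4 := (pow_le_pow_of_le_one hr0 hr1 he).trans hp4
  have hpeM : β⁻¹ ^ (e - M) ≤ δ ^ 3 :=
    (pow_le_pow_of_le_one hr0 hr1 (by omega : 3 * M ≤ e - M)).trans hp3
  have hd43 : δ ^ 4 ≤ δ ^ 3 := pow_le_pow_of_le_one hw0 hw (by norm_num)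
  have hd32 : δ ^ 3 ≤ δ ^ 2 := pow_le_pow_of_le_one hw0 hw (by norm_num)
  have hd21 : δ ^ 2 ≤ δ := by nlinarith
  -- auxiliary function v
  set v : ℤ → ℝ := fun j => if j ≤ 0 then β ^ j * β⁻¹ ^ (2 * e) else β⁻¹ ^ e with hv
  have hv0 : ∀ j, 0 ≤ v j := by
    intro j; rw [hv]; dsimp only
    split_ifs
    · exact mul_nonneg (zpow_pos hβ0 _).le (by positivity)
    · positivity
  -- pointwise bound
  have hpt : ∀ j : ℤ, tau β s j * tau β s (j - (2 * e : ℕ)) ≤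
      (Real.pi / κ) ^ 2 * v j + 3 * δ * (Real.pi / κ) * tau β s (j - (2 * e : ℕ)) := by
    intro j
    have t1 := tau_le_A h hκ hc j
    have t2 := tau_le_pow h hβ hκ hc (j - (2 * e : ℕ))
    have t3 := tau_le_w h hβ hω hκ hc j
    have n1 := tau_nonneg β s j
    have n2 := tau_nonneg β s (j - (2 * e : ℕ))
    rcases le_or_gt j e with hj | hj
    · have h5 : β ^ (j - (2 * e : ℕ)) ≤ v j := by
        rw [hv]; dsimp only
        have e0 : β ^ (j - (2 * e : ℕ)) = β ^ j * β⁻¹ ^ (2 * e) := by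
          rw [zpow_sub₀ hβ0.ne', zpow_natCast, inv_pow]; field_simp
        split_ifs with hj0
        · rw [e0]
        · calc β ^ (j - (2 * e : ℕ)) ≤ β ^ (-(e : ℤ)) := zpow_le_zpow_right₀ hβ.le (by push_cast; omega)
            _ = β⁻¹ ^ e := by rw [zpow_neg, zpow_natCast, inv_pow]
      have h6 : tau β s j * tau β s (j - (2 * e : ℕ)) ≤ (Real.pi / κ) * (Real.pi / κ * v j) :=
        mul_le_mul t1 (t2.trans (mul_le_mul_of_nonneg_left h5 hA.le)) n2 hA.le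
      have h7 : 0 ≤ 3 * δ * (Real.pi / κ) * tau β s (j - (2 * e : ℕ)) := by positivity
      nlinarith
    · have h5 : β ^ ((M : ℤ) - j) ≤ β⁻¹ ^ (e - M) := by
        calc β ^ ((M : ℤ) - j) ≤ β ^ (-((e - M : ℕ) : ℤ)) := zpow_le_zpow_right₀ hβ.le (by omega)
          _ = β⁻¹ ^ (e - M) := by rw [zpow_neg, zpow_natCast, inv_pow]
      have h6 : β ^ ((M : ℤ) - j) + 2 * δ ≤ 3 * δ := by linarith
      have h7 : tau β s j ≤ 3 * δ * (Real.pi / κ) := by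
        refine t3.trans ?_
        have := mul_le_mul_of_nonneg_left h6 hA.le
        linarith
      have h8 : tau β s j * tau β s (j - (2 * e : ℕ)) ≤
          3 * δ * (Real.pi / κ) * tau β s (j - (2 * e : ℕ)) := mul_le_mul_of_nonneg_right h7 n2
      have h9 : 0 ≤ (Real.pi / κ) ^ 2 * v j := mul_nonneg (by positivity) (hv0 j)
      linarith
  -- sum of v
  have hsv : ∑ n ∈ Finset.range K, v ((N : ℤ) - n) ≤ Cb β * δ + δ ^ 2 * N := by
    have h0 : ∀ K : ℕ, ∑ n ∈ Finset.range K, v (-(n : ℤ)) ≤ Cb β * δ := by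
      intro K
      have h1 : ∑ n ∈ Finset.range K, v (-(n : ℤ)) = ∑ n ∈ Finset.range K, β⁻¹ ^ (2 * e) * β⁻¹ ^ n := by
        refine Finset.sum_congr rfl fun n _ => ?_
        rw [hv]; dsimp only
        rw [if_pos (by omega), zpow_neg, zpow_natCast, inv_pow, inv_pow, mul_comm]
      rw [h1, ← Finset.mul_sum]
      have h2 := geom_le (r := β⁻¹) hr0 (inv_lt_one_of_one_lt₀ hβ) K
      have h3 : β⁻¹ ^ (2 * e) ≤ δ := by
        have : β⁻¹ ^ (2 * e) ≤ β⁻¹ ^ e := pow_le_pow_of_le_one hr0 hr1 (by omega)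
        linarith
      have h4 : 1 / (1 - β⁻¹) = Cb β := rfl
      rw [h4] at h2
      calc β⁻¹ ^ (2 * e) * ∑ i ∈ Finset.range K, β⁻¹ ^ i ≤ δ * Cb β :=
            mul_le_mul h3 h2 (Finset.sum_nonneg fun i _ => by positivity) hw0
        _ = Cb β * δ := mul_comm _ _
    have h1 := sum_shift v hv0 _ h0 (fun _ => δ ^ 2) (fun i => by
      rw [hv]; dsimp only
      rw [if_neg (by omega)]; linarith) N K
    refine h1.trans (le_of_eq ?_)
    rw [Finset.sum_const, Finset.card_range, nsmul_eq_mul]; ring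
  -- sum of shifted tau
  have hst : ∑ n ∈ Finset.range K, tau β s ((N : ℤ) - n - (2 * e : ℕ)) ≤
      Real.pi / κ * (2 * Cb β + M + 2 * δ * N) := by
    have h1 : ∑ n ∈ Finset.range K, tau β s ((N : ℤ) - n - (2 * e : ℕ)) =
        ∑ n ∈ Finset.range K, tau β s (((N : ℤ) - (2 * e : ℕ)) - n) :=
      Finset.sum_congr rfl fun n _ => by congr 1; ring
    rw [h1]
    rcases le_or_gt (2 * e) N with hN | hN
    · have h2 : (N : ℤ) - (2 * e : ℕ) = ((N - 2 * e : ℕ) : ℤ) := by omega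
      rw [h2]
      refine (sum_tau h hβ hω hκ hc (N - 2 * e) K).trans ?_
      refine mul_le_mul_of_nonneg_left ?_ hA.le
      have h3 : ((N - 2 * e : ℕ) : ℝ) ≤ N := by exact_mod_cast Nat.sub_le _ _
      have h4 : 2 * δ * ((N - 2 * e : ℕ) : ℝ) ≤ 2 * δ * N :=
        mul_le_mul_of_nonneg_left h3 (by positivity)
      linarith
    · refine (sum_tau_neg h hβ hκ hc _ (by omega) K).trans ?_
      refine mul_le_mul_of_nonneg_left ?_ hA.le
      have : 0 ≤ 2 * δ * (N : ℝ) := by positivity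
      have : (0 : ℝ) ≤ M := Nat.cast_nonneg _
      linarith
  -- total
  have htot : ∑ n ∈ Finset.range K, tau β s ((N : ℤ) - n) * tau β s ((N : ℤ) - n - (2 * e : ℕ)) ≤
      (Real.pi / κ) ^ 2 * (Cb β * δ + δ ^ 2 * N) +
        3 * δ * (Real.pi / κ) * (Real.pi / κ * (2 * Cb β + M + 2 * δ * N)) := by
    have h0 : ∑ n ∈ Finset.range K, tau β s ((N : ℤ) - n) * tau β s ((N : ℤ) - n - (2 * e : ℕ)) ≤
        ∑ n ∈ Finset.range K, ((Real.pi / κ) ^ 2 * v ((N : ℤ) - n) +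
          3 * δ * (Real.pi / κ) * tau β s ((N : ℤ) - n - (2 * e : ℕ))) :=
      Finset.sum_le_sum fun n _ => hpt ((N : ℤ) - n)
    refine h0.trans ?_
    rw [Finset.sum_add_distrib, ← Finset.mul_sum, ← Finset.mul_sum]
    exact add_le_add (mul_le_mul_of_nonneg_left hsv (by positivity))
      (mul_le_mul_of_nonneg_left hst (by positivity))
  refine htot.trans ?_
  have hM0 : (0 : ℝ) ≤ M := Nat.cast_nonneg _
  have hN0 : (0 : ℝ) ≤ N := Nat.cast_nonneg _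
  have e1 : (Real.pi / κ) ^ 2 * (Cb β * δ + δ ^ 2 * N) +
        3 * δ * (Real.pi / κ) * (Real.pi / κ * (2 * Cb β + M + 2 * δ * N)) =
      (Real.pi / κ) ^ 2 * (7 * Cb β * δ + 3 * (δ * M) + 7 * (δ ^ 2 * N)) := by ring
  rw [e1, C2]
  have e2 : 7 * Cb β * (Real.pi / κ) ^ 2 * (δ + δ * M + δ ^ 2 * N) =
      (Real.pi / κ) ^ 2 * (7 * Cb β * δ + 7 * Cb β * (δ * M) + 7 * Cb β * (δ ^ 2 * N)) := by ring
  rw [e2]
  refine mul_le_mul_of_nonneg_left ?_ (by positivity)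
  have h10 : 0 ≤ δ * M := by positivity
  have h11 : 0 ≤ δ ^ 2 * N := by positivity
  nlinarith

/-- pointwise smallness -/
theorem u_small (h : Res β ω s M w) (hβ : 1 < β) (hω : ‖ω‖ = 1) (hκ : 0 < κ)
    (hc : ∀ j : ℤ, κ ≤ |Real.cos (Real.pi * (s * β ^ j))|)
    (hwl : β⁻¹ ^ M ≤ ‖w‖) {e : ℕ} (he : 4 * M ≤ e) (j : ℤ) :
    tau β s j * tau β s (j - (2 * e : ℕ)) ≤ 3 * (Real.pi / κ) ^ 2 * ‖w‖ := by
  have hβ0 : 0 < β := by linarith
  have hA : 0 < Real.pi / κ := div_pos Real.pi_pos hκ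
  have hr0 : 0 ≤ β⁻¹ := by positivity
  have hr1 : β⁻¹ ≤ 1 := (inv_lt_one_of_one_lt₀ hβ).le
  have hw0 : 0 ≤ ‖w‖ := norm_nonneg _
  have hpe : β⁻¹ ^ e ≤ ‖w‖ := (pow_le_pow_of_le_one hr0 hr1 (by omega : M ≤ e)).trans hwl
  have hpeM : β⁻¹ ^ (e - M) ≤ ‖w‖ :=
    (pow_le_pow_of_le_one hr0 hr1 (by omega : M ≤ e - M)).trans hwl
  have t1 := tau_le_A h hκ hc j
  have t1' := tau_le_A h hκ hc (j - (2 * e : ℕ))
  have t2 := tau_le_pow h hβ hκ hc (j - (2 * e : ℕ))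
  have t3 := tau_le_w h hβ hω hκ hc j
  have n1 := tau_nonneg β s j
  have n2 := tau_nonneg β s (j - (2 * e : ℕ))
  rcases le_or_gt j e with hj | hj
  · have h5 : β ^ (j - (2 * e : ℕ)) ≤ ‖w‖ := by
      calc β ^ (j - (2 * e : ℕ)) ≤ β ^ (-(e : ℤ)) := zpow_le_zpow_right₀ hβ.le (by push_cast; omega)
        _ = β⁻¹ ^ e := by rw [zpow_neg, zpow_natCast, inv_pow]
        _ ≤ ‖w‖ := hpe
    have h6 : tau β s j * tau β s (j - (2 * e : ℕ)) ≤ (Real.pi / κ) * (Real.pi / κ * ‖w‖) :=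
      mul_le_mul t1 (t2.trans (mul_le_mul_of_nonneg_left h5 hA.le)) n2 hA.le
    nlinarith [mul_nonneg (mul_nonneg hA.le hA.le) hw0]
  · have h5 : β ^ ((M : ℤ) - j) ≤ β⁻¹ ^ (e - M) := by
      calc β ^ ((M : ℤ) - j) ≤ β ^ (-((e - M : ℕ) : ℤ)) := zpow_le_zpow_right₀ hβ.le (by omega)
        _ = β⁻¹ ^ (e - M) := by rw [zpow_neg, zpow_natCast, inv_pow]
    have h6 : β ^ ((M : ℤ) - j) + 2 * ‖w‖ ≤ 3 * ‖w‖ := by linarith
    have h7 : tau β s j ≤ Real.pi / κ * (3 * ‖w‖) :=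
      t3.trans (mul_le_mul_of_nonneg_left h6 hA.le)
    have h8 := mul_le_mul h7 t1' n2 (by positivity)
    nlinarith

end Crest.Agent.H24.Salem
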